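import Mathlib
import Crest.Prelude.Def_AsymptoticConvexity

/-!
Shared definitions for the row S0166 - S0169 (asymptotic midpoint convexity examples).
Typeclass versions of the notions of `Def_AsymptoticConvexity`, so that general lemmas can be
stated for an arbitrary real normed space `V` and then transported to `RealBanach` records.
-/

set_option autoImplicit false

namespace Crest.Agent.AsyLib

open Crest.AnalysisR

variable {V : Type*} [NormedAddCommGroup V] [NormedSpace ℝ V]

/-- `F` is (the carrier of) a closed linear subspace of finite codimension of `V`. -/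
def IsCofT (F : Set V) : Prop :=
  ∃ S : Submodule ℝ V, (S : Set V) = F ∧ IsClosed F ∧ FiniteDimensional ℝ (V ⧸ S)

/-- The homogeneous averaged midpoint property `MP`: for every centre `x` and every `η > 0` there is a
closed finite-codimensional `F` such that
`2 √(‖x‖² + ‖y‖²/4) ≤ ‖x + y‖ + ‖x - y‖ + η` for all `y ∈ F`. -/
def MP (V : Type*) [NormedAddCommGroup V] [NormedSpace ℝ V] : Prop :=
  ∀ x : V, ∀ η : ℝ, 0 < η → ∃ F : Set V, IsCofT F ∧
    ∀ y ∈ F, 2 * Real.sqrt (‖x‖ ^ 2 + ‖y‖ ^ 2 / 4) ≤ ‖x + y‖ + ‖x - y‖ + η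

/-- Upper `ℓ₂` estimate with constant `C` for a sequence of vectors. -/
def UpperTwo (y : ℕ → V) (C : ℝ) : Prop :=
  ∀ (A : Finset ℕ) (c : ℕ → ℝ), ‖∑ n ∈ A, c n • y n‖ ≤ C * Real.sqrt (∑ n ∈ A, c n ^ 2)

/-- The record of a complete real normed space. -/
def mkBanach (V : Type) [NormedAddCommGroup V] [NormedSpace ℝ V] [CompleteSpace V] : RealBanach :=
  ⟨V, inferInstance, inferInstance, inferInstance⟩

end Crest.Agent.AsyLib
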