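import Crest.Agent.AsyLib.Basic

/-!
Toolkit for closed finite-codimensional subspaces (`IsCofT`): kernels, intersections, preimages,
approximation of sequences with an upper `ℓ₂` estimate, pigeonhole for bounded sequences.
-/

set_option autoImplicit false

namespace Crest.Agent.AsyLib

variable {V : Type*} [NormedAddCommGroup V] [NormedSpace ℝ V]

theorem IsCofT.zero_mem {F : Set V} (hF : IsCofT F) : (0 : V) ∈ F := by
  obtain ⟨S, rfl, -, -⟩ := hF
  exact S.zero_mem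

theorem IsCofT.add_mem {F : Set V} (hF : IsCofT F) {x y : V} (hx : x ∈ F) (hy : y ∈ F) :
    x + y ∈ F := by
  obtain ⟨S, rfl, -, -⟩ := hF
  exact S.add_mem hx hy

theorem IsCofT.smul_mem {F : Set V} (hF : IsCofT F) (a : ℝ) {x : V} (hx : x ∈ F) :
    a • x ∈ F := by
  obtain ⟨S, rfl, -, -⟩ := hF
  exact S.smul_mem a hx

theorem IsCofT.neg_mem {F : Set V} (hF : IsCofT F) {x : V} (hx : x ∈ F) : -x ∈ F := by
  obtain ⟨S, rfl, -, -⟩ := hF
  exact S.neg_mem hx

theorem IsCofT.sub_mem {F : Set V} (hF : IsCofT F) {x y : V} (hx : x ∈ F) (hy : y ∈ F) :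
    x - y ∈ F := by
  obtain ⟨S, rfl, -, -⟩ := hF
  exact S.sub_mem hx hy

/-- The kernel of a continuous linear map into a finite-dimensional space. -/
theorem isCofT_ker {W : Type*} [NormedAddCommGroup W] [NormedSpace ℝ W] [FiniteDimensional ℝ W]
    (T : V →L[ℝ] W) : IsCofT {y : V | T y = 0} := by
  refine ⟨LinearMap.ker (T : V →ₗ[ℝ] W), ?_, ?_, ?_⟩
  · ext y
    simp
  · exact isClosed_eq T.continuous continuous_const
  · exact Module.Finite.equiv ((T : V →ₗ[ℝ] W).quotKerEquivRange).symm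

theorem isCofT_univ : IsCofT (Set.univ : Set V) := by
  have h := isCofT_ker (0 : V →L[ℝ] ℝ)
  have h2 : {y : V | (0 : V →L[ℝ] ℝ) y = 0} = Set.univ := by
    ext y
    simp
  rwa [h2] at h

/-- The common kernel of finitely many continuous linear functionals. -/
theorem isCofT_ker_pi {ι : Type*} [Finite ι] (φ : ι → V →L[ℝ] ℝ) :
    IsCofT {y : V | ∀ i, φ i y = 0} := by
  cases nonempty_fintype ι
  have h := isCofT_ker (ContinuousLinearMap.pi φ)
  have h2 : {y : V | ContinuousLinearMap.pi φ y = 0} = {y : V | ∀ i, φ i y = 0} := by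
    ext y
    simp [funext_iff]
  rwa [h2] at h

theorem IsCofT.inter {F G : Set V} (hF : IsCofT F) (hG : IsCofT G) : IsCofT (F ∩ G) := by
  obtain ⟨S, rfl, hS, hSf⟩ := hF
  obtain ⟨S', rfl, hS', hSf'⟩ := hG
  have := hSf
  have := hSf'
  refine ⟨S ⊓ S', rfl, hS.inter hS', ?_⟩
  let g : V →ₗ[ℝ] (V ⧸ S) × (V ⧸ S') := S.mkQ.prod S'.mkQ
  have hk : LinearMap.ker g = S ⊓ S' := by
    simp [g, LinearMap.ker_prod]
  exact Module.Finite.equiv (g.quotKerEquivRange.symm.trans (Submodule.quotEquivOfEq _ _ hk))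

/-- Finite intersections. -/
theorem isCofT_iInter_finset {ι : Type*} (s : Finset ι) (F : ι → Set V)
    (hF : ∀ i ∈ s, IsCofT (F i)) : IsCofT {y : V | ∀ i ∈ s, y ∈ F i} := by
  classical
  induction s using Finset.induction_on with
  | empty =>
    have h2 : {y : V | ∀ i ∈ (∅ : Finset ι), y ∈ F i} = Set.univ := by
      ext y
      simp
    rw [h2]
    exact isCofT_univ
  | insert a s ha ih =>
    have h2 : {y : V | ∀ i ∈ insert a s, y ∈ F i} = F a ∩ {y : V | ∀ i ∈ s, y ∈ F i} := by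
      ext y
      simp
    rw [h2]
    exact (hF a (Finset.mem_insert_self a s)).inter
      (ih fun i hi => hF i (Finset.mem_insert_of_mem hi))

/-- Preimage under a continuous linear map. -/
theorem IsCofT.preimage {W : Type*} [NormedAddCommGroup W] [NormedSpace ℝ W]
    (T : W →L[ℝ] V) {F : Set V} (hF : IsCofT F) : IsCofT (T ⁻¹' F) := by
  obtain ⟨S, rfl, hS, hSf⟩ := hF
  have := hSf
  refine ⟨S.comap (T : W →ₗ[ℝ] V), rfl, hS.preimage T.continuous, ?_⟩
  let g : W →ₗ[ℝ] V ⧸ S := S.mkQ.comp (T : W →ₗ[ℝ] V)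
  have hk : LinearMap.ker g = S.comap (T : W →ₗ[ℝ] V) := by
    simp [g, LinearMap.ker_comp]
  exact Module.Finite.equiv (g.quotKerEquivRange.symm.trans (Submodule.quotEquivOfEq _ _ hk))

/-- The kernel of a norming functional: `‖x‖ ≤ ‖x + y‖` for all `y` in a closed
finite-codimensional subspace (Hahn-Banach). -/
theorem exists_isCofT_norming (x : V) : ∃ F : Set V, IsCofT F ∧ ∀ y ∈ F, ‖x‖ ≤ ‖x + y‖ := by
  obtain ⟨g, hg, hgx⟩ := exists_dual_vector'' ℝ x
  refine ⟨{y | g y = 0}, isCofT_ker g, fun y hy => ?_⟩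
  have hy' : g y = 0 := hy
  have h1 : g (x + y) = ‖x‖ := by
    rw [map_add, hy', add_zero, hgx]
    simp
  calc ‖x‖ = g (x + y) := h1.symm
    _ ≤ ‖g (x + y)‖ := Real.le_norm_self _
    _ ≤ ‖g‖ * ‖x + y‖ := g.le_opNorm _
    _ ≤ 1 * ‖x + y‖ := by gcongr
    _ = ‖x + y‖ := one_mul _

/-- A sequence with an upper `ℓ₂` estimate is weakly null. -/
theorem UpperTwo.tendsto_clm {y : ℕ → V} {C : ℝ} (hy : UpperTwo y C) (φ : V →L[ℝ] ℝ) :
    Filter.Tendsto (fun n => φ (y n)) Filter.atTop (nhds 0) := by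
  rw [Metric.tendsto_atTop]
  intro ε hε
  have hfin : {n : ℕ | ε ≤ |φ (y n)|}.Finite := by
    by_contra hinf
    have hinf' : {n : ℕ | ε ≤ |φ (y n)|}.Infinite := hinf
    obtain ⟨m, hm⟩ := exists_nat_gt ((‖φ‖ * C / ε) ^ 2)
    obtain ⟨A, hA, hcard⟩ := hinf'.exists_subset_card_eq (m + 1)
    let c : ℕ → ℝ := fun n => if 0 ≤ φ (y n) then 1 else -1
    have hc2 : ∀ n, c n ^ 2 = 1 := by
      intro n
      simp only [c]
      split_ifs <;> norm_num
    have hcφ : ∀ n, c n * φ (y n) = |φ (y n)| := by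
      intro n
      simp only [c]
      split_ifs with h
      · rw [one_mul, abs_of_nonneg h]
      · rw [neg_one_mul, abs_of_neg (not_le.mp h)]
    have h1 : φ (∑ n ∈ A, c n • y n) = ∑ n ∈ A, |φ (y n)| := by
      rw [map_sum]
      refine Finset.sum_congr rfl fun n _ => ?_
      rw [map_smul, smul_eq_mul, hcφ]
    have h2 : (A.card : ℝ) * ε ≤ ∑ n ∈ A, |φ (y n)| := by
      have h : ∑ _n ∈ A, ε ≤ ∑ n ∈ A, |φ (y n)| := Finset.sum_le_sum fun n hn => hA hn
      simpa using h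
    have h3 : φ (∑ n ∈ A, c n • y n) ≤ ‖φ‖ * (C * Real.sqrt (A.card)) := by
      calc φ (∑ n ∈ A, c n • y n) ≤ ‖φ (∑ n ∈ A, c n • y n)‖ := Real.le_norm_self _
        _ ≤ ‖φ‖ * ‖∑ n ∈ A, c n • y n‖ := φ.le_opNorm _
        _ ≤ ‖φ‖ * (C * Real.sqrt (∑ n ∈ A, c n ^ 2)) := by
          gcongr
          exact hy A c
        _ = ‖φ‖ * (C * Real.sqrt (A.card)) := by simp [hc2]
    have hkpos : 0 < (A.card : ℝ) := by
      rw [hcard]
      positivity
    have hsq : Real.sqrt (A.card) * Real.sqrt (A.card) = (A.card : ℝ) :=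
      Real.mul_self_sqrt hkpos.le
    have hsqpos : 0 < Real.sqrt (A.card) := Real.sqrt_pos.mpr hkpos
    have h4 : Real.sqrt (A.card) * ε ≤ ‖φ‖ * C := by
      have h : Real.sqrt (A.card) * (Real.sqrt (A.card) * ε)
          ≤ Real.sqrt (A.card) * (‖φ‖ * C) := by
        calc Real.sqrt (A.card) * (Real.sqrt (A.card) * ε)
            = (A.card : ℝ) * ε := by rw [← mul_assoc, hsq]
          _ ≤ ‖φ‖ * (C * Real.sqrt (A.card)) := by linarith
          _ = Real.sqrt (A.card) * (‖φ‖ * C) := by ring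
      exact le_of_mul_le_mul_left h hsqpos
    have h5 : Real.sqrt (A.card) ≤ ‖φ‖ * C / ε := by
      rw [le_div_iff₀ hε]
      exact h4
    have h6 : (A.card : ℝ) ≤ (‖φ‖ * C / ε) ^ 2 := by
      calc (A.card : ℝ) = Real.sqrt (A.card) ^ 2 := (Real.sq_sqrt hkpos.le).symm
        _ ≤ (‖φ‖ * C / ε) ^ 2 := pow_le_pow_left₀ (Real.sqrt_nonneg _) h5 2
    rw [hcard] at h6
    push_cast at h6
    linarith
  obtain ⟨N, hN⟩ := hfin.bddAbove
  refine ⟨N + 1, fun n hn => ?_⟩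
  rw [Real.dist_eq, sub_zero]
  by_contra hcon
  have hmem : n ∈ {n : ℕ | ε ≤ |φ (y n)|} := not_lt.mp hcon
  have := hN hmem
  omega

private theorem cof_aux_lift (S : Submodule ℝ V) [IsClosed (S : Set V)] (v : V) {ε : ℝ}
    (h : ‖(Submodule.Quotient.mk v : V ⧸ S)‖ < ε) : ∃ y' ∈ S, ‖v - y'‖ < ε := by
  obtain ⟨m, hm, hmn⟩ :=
    Submodule.Quotient.norm_mk_lt (Submodule.Quotient.mk v : V ⧸ S) (sub_pos.mpr h)
  refine ⟨v - m, ?_, ?_⟩
  · have h1 := (Submodule.Quotient.eq S).mp hm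
    have h2 := S.neg_mem h1
    rwa [neg_sub] at h2
  · rw [sub_sub_cancel]
    linarith

/-- A weakly null sequence gets arbitrarily close to every closed finite-codimensional subspace. -/
theorem IsCofT.exists_near_of_weaklyNull {F : Set V} (hF : IsCofT F) {y : ℕ → V}
    (hy : ∀ φ : V →L[ℝ] ℝ, Filter.Tendsto (fun n => φ (y n)) Filter.atTop (nhds 0))
    {ε : ℝ} (hε : 0 < ε) : ∃ n₀ : ℕ, ∀ n, n₀ ≤ n → ∃ y' ∈ F, ‖y n - y'‖ ≤ ε := by
  obtain ⟨S, rfl, hS, hSf⟩ := hF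
  have : IsClosed (S : Set V) := hS
  have : FiniteDimensional ℝ (V ⧸ S) := hSf
  let e : (V ⧸ S) ≃L[ℝ] (Fin (Module.finrank ℝ (V ⧸ S)) → ℝ) :=
    (Module.finBasis ℝ (V ⧸ S)).equivFunL
  let ψ : Fin (Module.finrank ℝ (V ⧸ S)) → V →L[ℝ] ℝ := fun i =>
    ((ContinuousLinearMap.proj i : (Fin (Module.finrank ℝ (V ⧸ S)) → ℝ) →L[ℝ] ℝ).comp
      (e : (V ⧸ S) →L[ℝ] (Fin (Module.finrank ℝ (V ⧸ S)) → ℝ))).comp S.mkQL
  have hψ : ∀ i v, ψ i v = e (Submodule.Quotient.mk v) i := fun i v => rfl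
  set M : ℝ := ‖(e.symm : (Fin (Module.finrank ℝ (V ⧸ S)) → ℝ) →L[ℝ] (V ⧸ S))‖ with hM
  have hMnn : 0 ≤ M := ContinuousLinearMap.opNorm_nonneg _
  have hsymm : ∀ q : V ⧸ S, ‖q‖ ≤ M * ‖e q‖ := fun q => by
    have h := (e.symm : (Fin (Module.finrank ℝ (V ⧸ S)) → ℝ) →L[ℝ] (V ⧸ S)).le_opNorm (e q)
    simpa using h
  set ε' : ℝ := ε / (2 * (M + 1)) with hε'
  have hε'pos : 0 < ε' := by positivity
  have hev : ∀ᶠ n in Filter.atTop, ∀ i, |ψ i (y n)| < ε' := by
    rw [Filter.eventually_all]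
    intro i
    have h := Metric.tendsto_nhds.1 (hy (ψ i)) ε' hε'pos
    filter_upwards [h] with n hn
    rwa [Real.dist_eq, sub_zero] at hn
  obtain ⟨n₀, hn₀⟩ := Filter.eventually_atTop.1 hev
  refine ⟨n₀, fun n hn => ?_⟩
  have hcoord : ‖e (Submodule.Quotient.mk (y n) : V ⧸ S)‖ ≤ ε' := by
    rw [pi_norm_le_iff_of_nonneg hε'pos.le]
    intro i
    have h := (hn₀ n hn i).le
    rw [hψ] at h
    simpa [Real.norm_eq_abs] using h
  have hq : ‖(Submodule.Quotient.mk (y n) : V ⧸ S)‖ < ε := by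
    calc ‖(Submodule.Quotient.mk (y n) : V ⧸ S)‖
        ≤ M * ‖e (Submodule.Quotient.mk (y n) : V ⧸ S)‖ := hsymm _
      _ ≤ M * ε' := by gcongr
      _ < ε := by
        rw [hε']
        have h1 : M * (ε / (2 * (M + 1))) = ε * (M / (2 * (M + 1))) := by ring
        rw [h1]
        have h2 : M / (2 * (M + 1)) < 1 := by
          rw [div_lt_one (by positivity)]
          linarith
        nlinarith
  obtain ⟨y', hy', hlt⟩ := cof_aux_lift S (y n) hq
  exact ⟨y', hy', hlt.le⟩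

/-- A sequence with an upper `ℓ₂` estimate gets arbitrarily close to every closed
finite-codimensional subspace. -/
theorem IsCofT.exists_near_of_upperTwo {F : Set V} (hF : IsCofT F) {y : ℕ → V} {C : ℝ}
    (hy : UpperTwo y C) {ε : ℝ} (hε : 0 < ε) :
    ∃ n₀ : ℕ, ∀ n, n₀ ≤ n → ∃ y' ∈ F, ‖y n - y'‖ ≤ ε :=
  hF.exists_near_of_weaklyNull (fun φ => hy.tendsto_clm φ) hε

/-- A space containing a sequence with an upper `ℓ₂` estimate and norms bounded below is
infinite-dimensional. -/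
theorem not_finiteDimensional_of_upperTwo {y : ℕ → V} {C κ : ℝ} (hy : UpperTwo y C)
    (hκ : 0 < κ) (hn : ∀ n, κ ≤ ‖y n‖) : ¬ FiniteDimensional ℝ V := by
  intro hfd
  have hcof : IsCofT ({0} : Set V) := by
    refine ⟨⊥, by simp, isClosed_singleton, ?_⟩
    exact Module.Finite.equiv (Submodule.quotEquivOfEqBot (⊥ : Submodule ℝ V) rfl).symm
  obtain ⟨n₀, h⟩ := hcof.exists_near_of_upperTwo hy (half_pos hκ)
  obtain ⟨y', hy', hle⟩ := h n₀ le_rfl
  rw [Set.mem_singleton_iff] at hy'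
  subst hy'
  rw [sub_zero] at hle
  linarith [hn n₀]

/-- Pigeonhole in the finite-dimensional quotient: a bounded sequence has two distinct terms whose
difference is close to a given closed finite-codimensional subspace. -/
theorem IsCofT.exists_pair_near {F : Set V} (hF : IsCofT F) (z : ℕ → V) (R : ℝ)
    (hz : ∀ n, ‖z n‖ ≤ R) {ε : ℝ} (hε : 0 < ε) :
    ∃ i j : ℕ, i ≠ j ∧ ∃ w ∈ F, ‖z i - z j - w‖ ≤ ε := by
  obtain ⟨S, rfl, hS, hSf⟩ := hF
  have : IsClosed (S : Set V) := hS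
  have : FiniteDimensional ℝ (V ⧸ S) := hSf
  have : ProperSpace (V ⧸ S) := FiniteDimensional.proper_real (V ⧸ S)
  let x : ℕ → V ⧸ S := fun n => Submodule.Quotient.mk (z n)
  have hx : ∀ n, x n ∈ Metric.closedBall (0 : V ⧸ S) R := fun n => by
    rw [mem_closedBall_zero_iff]
    exact (Submodule.Quotient.norm_mk_le S (z n)).trans (hz n)
  obtain ⟨a, -, φ, hφ, hlim⟩ := tendsto_subseq_of_bounded Metric.isBounded_closedBall hx
  obtain ⟨N, hN⟩ := Metric.tendsto_atTop.1 hlim (ε / 2) (half_pos hε)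
  refine ⟨φ N, φ (N + 1), (hφ (Nat.lt_succ_self N)).ne, ?_⟩
  have h1 := hN N le_rfl
  have h2 := hN (N + 1) (Nat.le_succ N)
  have hq : ‖(Submodule.Quotient.mk (z (φ N) - z (φ (N + 1))) : V ⧸ S)‖ < ε := by
    have h3 : (Submodule.Quotient.mk (z (φ N) - z (φ (N + 1))) : V ⧸ S)
        = x (φ N) - x (φ (N + 1)) := rfl
    rw [h3, ← dist_eq_norm]
    calc dist (x (φ N)) (x (φ (N + 1)))
        ≤ dist (x (φ N)) a + dist (x (φ (N + 1))) a := dist_triangle_right _ _ _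
      _ < ε := by
        simp only [Function.comp] at h1 h2
        linarith
  obtain ⟨w, hw, hlt⟩ := cof_aux_lift S _ hq
  exact ⟨w, hw, hlt.le⟩

end Crest.Agent.AsyLib
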