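import Mathlib
import Crest.Prelude.Def_Diamond

/-!
Graph-distance facts for the countably branching diamond graphs of `Def_Diamond`
(helper7; used by `Crest/Agent/AsyLib/Diamond.lean`).
-/

set_option autoImplicit false

namespace Crest.Agent.AsyLib

open Crest Crest.AnalysisR

/-- Source and target of an edge are different. -/
theorem dia_src_ne_tgt : ∀ (k : ℕ) (e : DiamondEdge k), diamondSrc k e ≠ diamondTgt k e
  | 0, _ => by
    show (false : Bool) ≠ true
    decide
  | k + 1, (e, i, false) => by
    show (Sum.inl (diamondSrc k e) : DiamondVertex k ⊕ (DiamondEdge k × ℕ)) ≠ Sum.inr (e, i)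
    exact Sum.inl_ne_inr
  | k + 1, (e, i, true) => by
    show (Sum.inr (e, i) : DiamondVertex k ⊕ (DiamondEdge k × ℕ)) ≠ Sum.inl (diamondTgt k e)
    exact Sum.inr_ne_inl

theorem dia_adj_iff (k : ℕ) (u v : DiamondVertex k) :
    (diamondGraph k).Adj u v ↔ u ≠ v ∧
      ((∃ e : DiamondEdge k, diamondSrc k e = u ∧ diamondTgt k e = v) ∨
        (∃ e : DiamondEdge k, diamondSrc k e = v ∧ diamondTgt k e = u)) := by
  unfold diamondGraph
  rw [SimpleGraph.fromRel_adj]

theorem dia_adj_src_tgt (k : ℕ) (e : DiamondEdge k) :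
    (diamondGraph k).Adj (diamondSrc k e) (diamondTgt k e) := by
  rw [dia_adj_iff]
  exact ⟨dia_src_ne_tgt k e, Or.inl ⟨e, rfl, rfl⟩⟩

theorem dia_adj_inl_inr (k : ℕ) (e : DiamondEdge k) (i : ℕ) :
    (diamondGraph (k + 1)).Adj (Sum.inl (diamondSrc k e)) (Sum.inr (e, i)) := by
  exact dia_adj_src_tgt (k + 1) ((e, i, false) : DiamondEdge k × ℕ × Bool)

theorem dia_adj_inr_inl (k : ℕ) (e : DiamondEdge k) (i : ℕ) :
    (diamondGraph (k + 1)).Adj (Sum.inr (e, i)) (Sum.inl (diamondTgt k e)) := by
  exact dia_adj_src_tgt (k + 1) ((e, i, true) : DiamondEdge k × ℕ × Bool)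

/-- Every adjacency of `D (k+1)` joins an old endpoint of an edge `e` of `D k` to one of the
middle vertices of `e`. -/
theorem dia_adj_succ_cases (k : ℕ) (a b : DiamondVertex (k + 1))
    (h : (diamondGraph (k + 1)).Adj a b) :
    ∃ (e : DiamondEdge k) (i : ℕ),
      (a = Sum.inl (diamondSrc k e) ∧ b = Sum.inr (e, i)) ∨
      (a = Sum.inr (e, i) ∧ b = Sum.inl (diamondTgt k e)) ∨
      (b = Sum.inl (diamondSrc k e) ∧ a = Sum.inr (e, i)) ∨
      (b = Sum.inr (e, i) ∧ a = Sum.inl (diamondTgt k e)) := by
  rw [dia_adj_iff] at h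
  obtain ⟨-, h | h⟩ := h
  · obtain ⟨⟨e, i, c⟩, h1, h2⟩ := h
    refine ⟨e, i, ?_⟩
    cases c
    · left
      change Sum.inl (diamondSrc k e) = _ at h1
      change Sum.inr (e, i) = _ at h2
      exact ⟨h1.symm, h2.symm⟩
    · right; left
      change Sum.inr (e, i) = _ at h1
      change Sum.inl (diamondTgt k e) = _ at h2
      exact ⟨h1.symm, h2.symm⟩
  · obtain ⟨⟨e, i, c⟩, h1, h2⟩ := h
    refine ⟨e, i, ?_⟩
    cases c
    · right; right; left
      change Sum.inl (diamondSrc k e) = _ at h1
      change Sum.inr (e, i) = _ at h2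
      exact ⟨h1.symm, h2.symm⟩
    · right; right; right
      change Sum.inr (e, i) = _ at h1
      change Sum.inl (diamondTgt k e) = _ at h2
      exact ⟨h1.symm, h2.symm⟩

/-- Some edge exists at every level. -/
def diaEdge0 : (k : ℕ) → DiamondEdge k
  | 0 => ()
  | k + 1 => (diaEdge0 k, 0, false)

theorem dia_reach_inl (k : ℕ) (u v : DiamondVertex k) (h : (diamondGraph k).Reachable u v) :
    (diamondGraph (k + 1)).Reachable (Sum.inl u) (Sum.inl v) := by
  rw [SimpleGraph.reachable_iff_reflTransGen] at h
  induction h with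
  | refl => exact SimpleGraph.Reachable.refl _
  | @tail b c _ hbc ih =>
    refine ih.trans ?_
    rw [dia_adj_iff] at hbc
    obtain ⟨-, ⟨e, rfl, rfl⟩ | ⟨e, rfl, rfl⟩⟩ := hbc
    · exact (dia_adj_inl_inr k e 0).reachable.trans (dia_adj_inr_inl k e 0).reachable
    · exact ((dia_adj_inl_inr k e 0).reachable.trans (dia_adj_inr_inl k e 0).reachable).symm

theorem dia_connected : ∀ k : ℕ, (diamondGraph k).Connected
  | 0 => by
    have h01 : (diamondGraph 0).Adj (false : Bool) (true : Bool) := by
      exact dia_adj_src_tgt 0 ()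
    have : Nonempty (DiamondVertex 0) := ⟨(false : Bool)⟩
    refine SimpleGraph.Connected.mk ?_
    intro u v
    have key : ∀ w : Bool, (diamondGraph 0).Reachable (false : Bool) w := by
      intro w
      cases w
      · exact SimpleGraph.Reachable.refl _
      · exact h01.reachable
    exact (key u).symm.trans (key v)
  | k + 1 => by
    have ih := dia_connected k
    have : Nonempty (DiamondVertex (k + 1)) := ⟨Sum.inl (diamondSrc k (diaEdge0 k))⟩
    refine SimpleGraph.Connected.mk ?_
    have key : ∀ w : DiamondVertex (k + 1),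
        (diamondGraph (k + 1)).Reachable (Sum.inl (diamondSrc k (diaEdge0 k))) w := by
      intro w
      rcases w with w | ⟨e, i⟩
      · exact dia_reach_inl k _ _ (ih.preconnected _ _)
      · exact (dia_reach_inl k _ _ (ih.preconnected _ _)).trans (dia_adj_inl_inr k e i).reachable
    intro u v
    exact (key u).symm.trans (key v)

theorem dia_dist_src_tgt (k : ℕ) (e : DiamondEdge k) :
    diamondDist k (diamondSrc k e) (diamondTgt k e) = 1 := by
  unfold diamondDist
  rw [SimpleGraph.dist_eq_one_iff_adj]
  exact dia_adj_src_tgt k e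

theorem dia_dist_comm (k : ℕ) (u v : DiamondVertex k) : diamondDist k u v = diamondDist k v u := by
  unfold diamondDist
  exact SimpleGraph.dist_comm

/-- Distances to the two endpoints of an edge differ by at most one. -/
theorem dia_dist_edge_le (k : ℕ) (u : DiamondVertex k) (e : DiamondEdge k) :
    diamondDist k u (diamondTgt k e) ≤ diamondDist k u (diamondSrc k e) + 1 ∧
      diamondDist k u (diamondSrc k e) ≤ diamondDist k u (diamondTgt k e) + 1 := by
  have hc := dia_connected k
  have h1 := dia_dist_src_tgt k e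
  have h2 : diamondDist k (diamondTgt k e) (diamondSrc k e) = 1 := by
    rw [dia_dist_comm]; exact h1
  unfold diamondDist at *
  constructor
  · have := hc.dist_triangle (u := u) (v := diamondSrc k e) (w := diamondTgt k e)
    omega
  · have := hc.dist_triangle (u := u) (v := diamondTgt k e) (w := diamondSrc k e)
    omega

/-- The potential used for the lower bound of distances in `D (k+1)`. -/
noncomputable def diaPot (k : ℕ) (u : DiamondVertex k) : DiamondVertex (k + 1) → ℕ
  | Sum.inl x => 2 * diamondDist k u x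
  | Sum.inr (e, _) => diamondDist k u (diamondSrc k e) + diamondDist k u (diamondTgt k e)

theorem diaPot_adj (k : ℕ) (u : DiamondVertex k) (a b : DiamondVertex (k + 1))
    (h : (diamondGraph (k + 1)).Adj a b) : diaPot k u b ≤ diaPot k u a + 1 := by
  obtain ⟨e, i, h | h | h | h⟩ := dia_adj_succ_cases k a b h
  all_goals
    obtain ⟨rfl, rfl⟩ := h
    have := dia_dist_edge_le k u e
    simp only [diaPot]
    omega

theorem diaPot_walk (k : ℕ) (u : DiamondVertex k) (a b : DiamondVertex (k + 1))
    (p : (diamondGraph (k + 1)).Walk a b) : diaPot k u b ≤ diaPot k u a + p.length := by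
  induction p with
  | nil => simp
  | @cons a c b hac p ih =>
    have := diaPot_adj k u a c hac
    simp only [SimpleGraph.Walk.length_cons]
    omega

/-- Distances between old vertices at least double in the next diamond. -/
theorem dia_dist_inl_ge (k : ℕ) (u v : DiamondVertex k) :
    2 * diamondDist k u v ≤ diamondDist (k + 1) (Sum.inl u) (Sum.inl v) := by
  obtain ⟨p, hp⟩ := (dia_connected (k + 1)).exists_walk_length_eq_dist (Sum.inl u) (Sum.inl v)
  have h := diaPot_walk k u (Sum.inl u) (Sum.inl v) p
  have h0 : diamondDist k u u = 0 := by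
    unfold diamondDist; exact SimpleGraph.dist_self
  simp only [diaPot, h0] at h
  unfold diamondDist at *
  omega

/-- Two different middle vertices of the same edge are at distance at least two. -/
theorem dia_dist_inr_ge (k : ℕ) (e : DiamondEdge k) (i j : ℕ) (hij : i ≠ j) :
    2 ≤ diamondDist (k + 1) (Sum.inr (e, i)) (Sum.inr (e, j)) := by
  unfold diamondDist
  have hne : (Sum.inr (e, i) : DiamondVertex (k + 1)) ≠ Sum.inr (e, j) := by
    intro h
    have h' := Sum.inr_injective h
    exact hij (congrArg (fun p => p.2) h')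
  have hnadj : ¬ (diamondGraph (k + 1)).Adj (Sum.inr (e, i)) (Sum.inr (e, j)) := by
    intro h
    obtain ⟨e', i', h | h | h | h⟩ := dia_adj_succ_cases k _ _ h
    · exact Sum.inr_ne_inl h.1
    · exact Sum.inr_ne_inl h.2
    · exact Sum.inr_ne_inl h.1
    · exact Sum.inr_ne_inl h.2
  exact (dia_connected (k + 1)).one_lt_dist_of_ne_of_not_adj hne hnadj

end Crest.Agent.AsyLib
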