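import Crest.Agent.AsyLib.Basic
import Crest.Prelude.Def_Diamond
import Crest.Agent.AsyLib.DiamondGraph

/-!
Distortion of the countably branching diamond graphs in spaces with the midpoint property `MP`.
-/

set_option autoImplicit false

namespace Crest.Agent.AsyLib

open Crest.AnalysisR

/-- Pigeonhole in a finite-dimensional quotient: a bounded sequence has two different members whose
difference is arbitrarily close to the closed finite-codimensional subspace. -/
theorem dia_pigeon {X : Type} [NormedAddCommGroup X] [NormedSpace ℝ X] (S : Submodule ℝ X)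
    (hS : IsClosed (S : Set X)) (hfd : FiniteDimensional ℝ (X ⧸ S)) (m : ℕ → X) (R : ℝ)
    (hm : ∀ i, ‖m i‖ ≤ R) (δ : ℝ) (hδ : 0 < δ) :
    ∃ i j : ℕ, i ≠ j ∧ ∃ z ∈ S, ‖(m i - m j) - z‖ < δ := by
  have : IsClosed (S : Set X) := hS
  have : FiniteDimensional ℝ (X ⧸ S) := hfd
  let q : ℕ → X ⧸ S := fun i => Submodule.Quotient.mk (m i)
  have hq : ∀ i, q i ∈ Metric.closedBall (0 : X ⧸ S) R := by
    intro i
    rw [mem_closedBall_zero_iff]
    exact (Submodule.Quotient.norm_mk_le S (m i)).trans (hm i)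
  obtain ⟨a, -, φ, hφ, hlim⟩ := tendsto_subseq_of_bounded Metric.isBounded_closedBall hq
  have hc := hlim.cauchySeq
  rw [Metric.cauchySeq_iff] at hc
  obtain ⟨N, hN⟩ := hc (δ / 2) (by positivity)
  have h1 := hN N le_rfl (N + 1) (by omega)
  refine ⟨φ N, φ (N + 1), (hφ (Nat.lt_succ_self N)).ne, ?_⟩
  rw [dist_eq_norm] at h1
  have h2 : (q ∘ φ) N - (q ∘ φ) (N + 1)
      = (Submodule.Quotient.mk (m (φ N) - m (φ (N + 1))) : X ⧸ S) := by
    simp [q, Submodule.Quotient.mk_sub]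
  rw [h2] at h1
  obtain ⟨w, hw, hw2⟩ := Submodule.Quotient.norm_mk_lt
    (Submodule.Quotient.mk (m (φ N) - m (φ (N + 1))) : X ⧸ S) (ε := δ / 2) (by positivity)
  refine ⟨(m (φ N) - m (φ (N + 1))) - w, ?_, ?_⟩
  · exact (Submodule.Quotient.eq S).1 hw.symm
  · have : (m (φ N) - m (φ (N + 1))) - ((m (φ N) - m (φ (N + 1))) - w) = w := by abel
    rw [this]
    linarith

/-- The analytic core: one step of the self-improvement argument. If `p`, `q` are both within `B`
of infinitely many points `m i` that are pairwise `2 s`-separated, then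
`‖p - q‖² + s² ≤ 4 B²`. -/
theorem dia_core {X : Type} [NormedAddCommGroup X] [NormedSpace ℝ X] (hX : MP X)
    (p q : X) (m : ℕ → X) (B s : ℝ) (hs : 0 < s)
    (h1 : ∀ i, ‖p - m i‖ ≤ B) (h2 : ∀ i, ‖m i - q‖ ≤ B)
    (h3 : ∀ i j, i ≠ j → 2 * s ≤ ‖m i - m j‖) :
    ‖p - q‖ ^ 2 + s ^ 2 ≤ 4 * B ^ 2 := by
  set x : X := (1 / 2 : ℝ) • (q - p) with hx
  have hhalf : ‖(1 / 2 : ℝ)‖ = 1 / 2 := Real.norm_of_nonneg (by norm_num)
  have hB0 : 0 ≤ B := (norm_nonneg _).trans (h1 0)
  have hxy : ∀ i j, ‖x + (1 / 2 : ℝ) • (m i - m j)‖ ≤ B := by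
    intro i j
    have e : x + (1 / 2 : ℝ) • (m i - m j) = (1 / 2 : ℝ) • ((m i - p) + (q - m j)) := by
      rw [hx]; module
    rw [e, norm_smul, hhalf]
    have e0 := norm_add_le (m i - p) (q - m j)
    have e1 : ‖m i - p‖ ≤ B := by rw [norm_sub_rev]; exact h1 i
    have e2 : ‖q - m j‖ ≤ B := by rw [norm_sub_rev]; exact h2 j
    linarith
  have hy : ∀ i j, i ≠ j → s ≤ ‖(1 / 2 : ℝ) • (m i - m j)‖ := by
    intro i j hij
    rw [norm_smul, hhalf]
    linarith [h3 i j hij]
  have hnx : ‖p - q‖ = 2 * ‖x‖ := by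
    rw [hx, norm_smul, hhalf, norm_sub_rev]; ring
  have main : ‖x‖ ^ 2 + s ^ 2 / 4 ≤ B ^ 2 := by
    have key : ∀ δ ∈ Set.Ioo (0 : ℝ) s,
        ‖x‖ ^ 2 + (s - δ) ^ 2 / 4 ≤ (B + 2 * δ) ^ 2 := by
      rintro δ ⟨hδ0, hδs⟩
      obtain ⟨F, ⟨S, hSF, hSc, hSf⟩, hSprop⟩ := hX x δ hδ0
      subst hSF
      have hmb : ∀ i, ‖(1 / 2 : ℝ) • m i‖ ≤ (‖p‖ + B) / 2 := by
        intro i
        rw [norm_smul, hhalf]
        have e : m i = p - (p - m i) := by abel
        have e1 := norm_sub_le p (p - m i)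
        rw [← e] at e1
        linarith [h1 i]
      obtain ⟨i, j, hij, z, hzS, hz⟩ :=
        dia_pigeon S hSc hSf (fun i => (1 / 2 : ℝ) • m i) ((‖p‖ + B) / 2) hmb δ hδ0
      simp only [← smul_sub] at hz
      set y : X := (1 / 2 : ℝ) • (m i - m j) with hydef
      have hyn : s ≤ ‖y‖ := hy i j hij
      have hzn : s - δ < ‖z‖ := by
        have e : y = (y - z) + z := by abel
        have e1 := norm_add_le (y - z) z
        rw [← e] at e1
        linarith
      have hP := hSprop z hzS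
      have hxz1 : ‖x + z‖ ≤ B + δ := by
        have e : x + z = (x + y) - (y - z) := by abel
        rw [e]
        have e1 := norm_sub_le (x + y) (y - z)
        have e2 := hxy i j
        linarith
      have hxz2 : ‖x - z‖ ≤ B + δ := by
        have e : x - z = (x + (1 / 2 : ℝ) • (m j - m i)) + (y - z) := by
          rw [hydef]; module
        rw [e]
        have e1 := norm_add_le (x + (1 / 2 : ℝ) • (m j - m i)) (y - z)
        have e2 := hxy j i
        linarith
      have hmono : Real.sqrt (‖x‖ ^ 2 + (s - δ) ^ 2 / 4) ≤ Real.sqrt (‖x‖ ^ 2 + ‖z‖ ^ 2 / 4) := by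
        apply Real.sqrt_le_sqrt
        have : (s - δ) ^ 2 ≤ ‖z‖ ^ 2 := by
          have h0 : 0 ≤ s - δ := by linarith
          nlinarith
        linarith
      have hsq2 : Real.sqrt (‖x‖ ^ 2 + (s - δ) ^ 2 / 4) ≤ B + 2 * δ := by linarith
      have hsq3 := pow_le_pow_left₀ (Real.sqrt_nonneg _) hsq2 2
      rw [Real.sq_sqrt (by positivity)] at hsq3
      exact hsq3
    have hL : Filter.Tendsto (fun δ : ℝ => ‖x‖ ^ 2 + (s - δ) ^ 2 / 4)
        (nhdsWithin 0 (Set.Ioi 0)) (nhds (‖x‖ ^ 2 + (s - 0) ^ 2 / 4)) :=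
      ((by fun_prop : Continuous (fun δ : ℝ => ‖x‖ ^ 2 + (s - δ) ^ 2 / 4)).tendsto 0).mono_left
        nhdsWithin_le_nhds
    have hR : Filter.Tendsto (fun δ : ℝ => (B + 2 * δ) ^ 2)
        (nhdsWithin 0 (Set.Ioi 0)) (nhds ((B + 2 * 0) ^ 2)) :=
      ((by fun_prop : Continuous (fun δ : ℝ => (B + 2 * δ) ^ 2)).tendsto 0).mono_left
        nhdsWithin_le_nhds
    have hev : ∀ᶠ δ in nhdsWithin (0 : ℝ) (Set.Ioi 0),
        ‖x‖ ^ 2 + (s - δ) ^ 2 / 4 ≤ (B + 2 * δ) ^ 2 := by
      filter_upwards [Ioo_mem_nhdsGT hs] with δ hδ using key δ hδ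
    have hfin := le_of_tendsto_of_tendsto hL hR hev
    simpa using hfin
  rw [hnx]
  nlinarith

/-- An edge forces `A ≥ 1`. -/
theorem dia_edge_ge {X : Type} [NormedAddCommGroup X] (k : ℕ) (f : DiamondVertex k → X) (s A : ℝ)
    (hs : 0 < s) (hlow : ∀ u v, s * (diamondDist k u v : ℝ) ≤ ‖f u - f v‖)
    (hedge : ∀ e, ‖f (diamondSrc k e) - f (diamondTgt k e)‖ ≤ A * s) : 1 ≤ A := by
  have h1 := hlow (diamondSrc k (diaEdge0 k)) (diamondTgt k (diaEdge0 k))
  rw [dia_dist_src_tgt] at h1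
  have h2 := hedge (diaEdge0 k)
  have h3 : s * 1 ≤ A * s := by
    push_cast at h1
    linarith
  nlinarith

/-- The self-improvement induction: a map of `D k` which is `s`-expanding on all pairs and
stretches every edge by at most `A s` has `1 + k/4 ≤ A²`. -/
theorem dia_main {X : Type} [NormedAddCommGroup X] [NormedSpace ℝ X] (hX : MP X) :
    ∀ (k : ℕ) (f : DiamondVertex k → X) (s A : ℝ), 0 < s →
      (∀ u v, s * (diamondDist k u v : ℝ) ≤ ‖f u - f v‖) →
      (∀ e, ‖f (diamondSrc k e) - f (diamondTgt k e)‖ ≤ A * s) →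
      1 + (k : ℝ) / 4 ≤ A ^ 2 := by
  intro k
  induction k with
  | zero =>
    intro f s A hs hlow hedge
    have hA : 1 ≤ A := dia_edge_ge 0 f s A hs hlow hedge
    simp only [Nat.cast_zero, zero_div, add_zero]
    nlinarith
  | succ k ih =>
    intro f s A hs hlow hedge
    have hA : 1 ≤ A := dia_edge_ge (k + 1) f s A hs hlow hedge
    have hAsq : 0 ≤ A ^ 2 - 1 / 4 := by nlinarith
    set A' : ℝ := Real.sqrt (A ^ 2 - 1 / 4) with hA'
    have hA'0 : 0 ≤ A' := Real.sqrt_nonneg _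
    have hA'sq : A' ^ 2 = A ^ 2 - 1 / 4 := Real.sq_sqrt hAsq
    have hih := ih (fun u => f (Sum.inl u)) (2 * s) A' (by linarith) ?_ ?_
    · push_cast
      linarith
    · intro u v
      have h := hlow (Sum.inl u) (Sum.inl v)
      have hd := dia_dist_inl_ge k u v
      have hd' : (2 * (diamondDist k u v : ℝ)) ≤ (diamondDist (k + 1) (Sum.inl u) (Sum.inl v) : ℝ) := by
        exact_mod_cast hd
      have : 2 * s * (diamondDist k u v : ℝ) ≤ s * (diamondDist (k + 1) (Sum.inl u) (Sum.inl v) : ℝ) := by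
        nlinarith
      exact this.trans h
    · intro e
      have hc := dia_core hX (f (Sum.inl (diamondSrc k e))) (f (Sum.inl (diamondTgt k e)))
        (fun i => f (Sum.inr (e, i))) (A * s) s hs ?_ ?_ ?_
      · have h4 : ‖f (Sum.inl (diamondSrc k e)) - f (Sum.inl (diamondTgt k e))‖ ^ 2
            ≤ (A' * (2 * s)) ^ 2 := by
          rw [mul_pow, hA'sq]
          nlinarith
        exact (abs_le_of_sq_le_sq' h4 (by positivity)).2
      · intro i
        exact hedge ((e, i, false) : DiamondEdge k × ℕ × Bool)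
      · intro i
        exact hedge ((e, i, true) : DiamondEdge k × ℕ × Bool)
      · intro i j hij
        have h := hlow (Sum.inr (e, i)) (Sum.inr (e, j))
        have hd := dia_dist_inr_ge k e i j hij
        have hd' : (2 : ℝ) ≤ (diamondDist (k + 1) (Sum.inr (e, i)) (Sum.inr (e, j)) : ℝ) := by
          exact_mod_cast hd
        have : 2 * s ≤ s * (diamondDist (k + 1) (Sum.inr (e, i)) (Sum.inr (e, j)) : ℝ) := by
          nlinarith
        exact this.trans h

/-- In a space with property `MP`, every map of the depth-`k` countably branching diamond of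
distortion at most `D` (with scale `s`) has `1 + k/4 ≤ D²`. -/
theorem diamond_distortion_of_MP {V : Type} [NormedAddCommGroup V] [NormedSpace ℝ V] (h : MP V)
    (k : ℕ) (f : DiamondVertex k → V) (D s : ℝ) (hs : 0 < s)
    (hf : ∀ u v : DiamondVertex k, s * (diamondDist k u v : ℝ) ≤ ‖f u - f v‖ ∧
        ‖f u - f v‖ ≤ D * s * (diamondDist k u v : ℝ)) :
    1 + (k : ℝ) / 4 ≤ D ^ 2 := by
  refine dia_main h k f s D hs (fun u v => (hf u v).1) (fun e => ?_)
  have h2 := (hf (diamondSrc k e) (diamondTgt k e)).2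
  rw [dia_dist_src_tgt] at h2
  simpa using h2

end Crest.Agent.AsyLib
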