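import Crest.Agent.AsyLib.Basic
import Crest.Agent.AsyLib.Cof

/-!
The midpoint property `MP` passes to `ℓ₂`-sums.
-/

set_option autoImplicit false

namespace Crest.Agent.AsyLib

open scoped ENNReal

/-- Finite Minkowski inequality (three summands), in the form needed for `MP_lp_two`. -/
theorem lpSum_aux_minkowski (S : Finset ℕ) (c u v e : ℕ → ℝ)
    (hc : ∀ n ∈ S, 0 ≤ c n) (h : ∀ n ∈ S, c n ≤ u n + v n + e n) :
    Real.sqrt (∑ n ∈ S, c n ^ 2) ≤
      Real.sqrt (∑ n ∈ S, u n ^ 2) + Real.sqrt (∑ n ∈ S, v n ^ 2) +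
        Real.sqrt (∑ n ∈ S, e n ^ 2) := by
  set U := Real.sqrt (∑ n ∈ S, u n ^ 2) with hU
  set V := Real.sqrt (∑ n ∈ S, v n ^ 2) with hV
  set E := Real.sqrt (∑ n ∈ S, e n ^ 2) with hE
  have hU0 : 0 ≤ U := Real.sqrt_nonneg _
  have hV0 : 0 ≤ V := Real.sqrt_nonneg _
  have hE0 : 0 ≤ E := Real.sqrt_nonneg _
  have hUsq : U ^ 2 = ∑ n ∈ S, u n ^ 2 := Real.sq_sqrt (Finset.sum_nonneg fun n _ => sq_nonneg _)
  have hVsq : V ^ 2 = ∑ n ∈ S, v n ^ 2 := Real.sq_sqrt (Finset.sum_nonneg fun n _ => sq_nonneg _)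
  have hEsq : E ^ 2 = ∑ n ∈ S, e n ^ 2 := Real.sq_sqrt (Finset.sum_nonneg fun n _ => sq_nonneg _)
  have huv : ∑ n ∈ S, u n * v n ≤ U * V := Real.sum_mul_le_sqrt_mul_sqrt S u v
  have hue : ∑ n ∈ S, u n * e n ≤ U * E := Real.sum_mul_le_sqrt_mul_sqrt S u e
  have hve : ∑ n ∈ S, v n * e n ≤ V * E := Real.sum_mul_le_sqrt_mul_sqrt S v e
  have h1 : ∑ n ∈ S, c n ^ 2 ≤ ∑ n ∈ S, (u n + v n + e n) ^ 2 := by
    apply Finset.sum_le_sum
    intro n hn
    exact pow_le_pow_left₀ (hc n hn) (h n hn) 2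
  have h2 : ∑ n ∈ S, (u n + v n + e n) ^ 2 =
      ∑ n ∈ S, u n ^ 2 + ∑ n ∈ S, v n ^ 2 + ∑ n ∈ S, e n ^ 2 +
        2 * ∑ n ∈ S, u n * v n + 2 * ∑ n ∈ S, u n * e n + 2 * ∑ n ∈ S, v n * e n := by
    simp only [Finset.mul_sum, ← Finset.sum_add_distrib]
    apply Finset.sum_congr rfl
    intro n _
    ring
  have h3 : ∑ n ∈ S, c n ^ 2 ≤ (U + V + E) ^ 2 := by
    rw [h2] at h1
    nlinarith
  calc Real.sqrt (∑ n ∈ S, c n ^ 2) ≤ Real.sqrt ((U + V + E) ^ 2) := Real.sqrt_le_sqrt h3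
    _ = U + V + E := Real.sqrt_sq (by positivity)

/-- Partial sums of squares of the coordinates are bounded by the square of the `ℓ₂` norm. -/
theorem lpSum_aux_sum_le {X : ℕ → Type*} [∀ n, NormedAddCommGroup (X n)] (z : lp X 2)
    (S : Finset ℕ) : ∑ n ∈ S, ‖z n‖ ^ 2 ≤ ‖z‖ ^ 2 := by
  have hp : 0 < (2 : ℝ≥0∞).toReal := by norm_num
  have h := lp.sum_rpow_le_norm_rpow hp z S
  have h2 : (2 : ℝ≥0∞).toReal = 2 := by norm_num
  rw [h2] at h
  simpa [Real.rpow_two] using h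

/-- The squares of the coordinate norms sum to the square of the `ℓ₂` norm. -/
theorem lpSum_aux_hasSum {X : ℕ → Type*} [∀ n, NormedAddCommGroup (X n)] (z : lp X 2) :
    HasSum (fun n => ‖z n‖ ^ 2) (‖z‖ ^ 2) := by
  have hp : 0 < (2 : ℝ≥0∞).toReal := by norm_num
  have h := lp.hasSum_norm hp z
  have h2 : (2 : ℝ≥0∞).toReal = 2 := by norm_num
  rw [h2] at h
  simpa [Real.rpow_two] using h

/-- The `ℓ₂`-sum of a sequence of spaces with property `MP` has property `MP`. -/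
theorem MP_lp_two {X : ℕ → Type*} [∀ n, NormedAddCommGroup (X n)] [∀ n, NormedSpace ℝ (X n)]
    (h : ∀ n, MP (X n)) : MP (lp X 2) := by
  intro x η hη
  -- choose the cut-off `M`
  obtain ⟨M, hM⟩ : ∃ M : ℕ, ‖x‖ ^ 2 - ∑ n ∈ Finset.range M, ‖x n‖ ^ 2 ≤ (η / 8) ^ 2 := by
    have ht := (lpSum_aux_hasSum x).tendsto_sum_nat
    have hlt : ‖x‖ ^ 2 - (η / 8) ^ 2 < ‖x‖ ^ 2 := by
      have : 0 < (η / 8) ^ 2 := by positivity
      linarith
    obtain ⟨M, hM⟩ := (ht.eventually (lt_mem_nhds hlt)).exists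
    exact ⟨M, by linarith⟩
  set η' : ℝ := η / (2 * Real.sqrt (M + 1)) with hη'
  have hsq_pos : 0 < Real.sqrt ((M : ℝ) + 1) := Real.sqrt_pos.mpr (by positivity)
  have hη'pos : 0 < η' := by positivity
  have hMη' : (M : ℝ) * η' ^ 2 ≤ η ^ 2 / 4 := by
    have h1 : η' ^ 2 = η ^ 2 / (4 * ((M : ℝ) + 1)) := by
      rw [hη', div_pow, mul_pow, Real.sq_sqrt (by positivity)]
      norm_num
    rw [h1]
    have hM1 : (0 : ℝ) < 4 * ((M : ℝ) + 1) := by positivity
    rw [mul_div_assoc', div_le_div_iff₀ hM1 (by norm_num)]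
    nlinarith [sq_nonneg η, (Nat.cast_nonneg M : (0 : ℝ) ≤ M)]
  choose F hF hFy using fun n => h n (x n) η' hη'pos
  refine ⟨{y : lp X 2 | ∀ n ∈ Finset.range M, y ∈ (lp.evalCLM ℝ X 2 n) ⁻¹' (F n)}, ?_, ?_⟩
  · exact isCofT_iInter_finset (Finset.range M) (fun n => (lp.evalCLM ℝ X 2 n) ⁻¹' (F n))
      (fun n _ => (hF n).preimage (lp.evalCLM ℝ X 2 n))
  · intro y hy
    have hyF : ∀ n, n < M → y n ∈ F n := by
      intro n hn
      exact hy n (Finset.mem_range.mpr hn)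
    set R : ℝ := ‖x + y‖ + ‖x - y‖ + η with hR
    have hR0 : 0 ≤ R := by positivity
    -- pointwise data
    set c : ℕ → ℝ := fun n => 2 * Real.sqrt (‖x n‖ ^ 2 + ‖y n‖ ^ 2 / 4) with hc
    set u : ℕ → ℝ := fun n => ‖(x + y) n‖ with hu
    set v : ℕ → ℝ := fun n => ‖(x - y) n‖ with hv
    set e : ℕ → ℝ := fun n => if n < M then η' else 2 * ‖x n‖ with he
    have hpt : ∀ n, c n ≤ u n + v n + e n := by
      intro n
      have hun : u n = ‖x n + y n‖ := by simp [hu]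
      have hvn : v n = ‖x n - y n‖ := by simp [hv]
      by_cases hn : n < M
      · have := hFy n (y n) (hyF n hn)
        simp only [hc, he, hn, if_true, hun, hvn]
        linarith
      · have h1 : Real.sqrt (‖x n‖ ^ 2 + ‖y n‖ ^ 2 / 4) ≤ ‖x n‖ + ‖y n‖ / 2 := by
          rw [Real.sqrt_le_left (by positivity)]
          nlinarith [norm_nonneg (x n), norm_nonneg (y n)]
        have h2 : 2 * ‖y n‖ ≤ ‖x n + y n‖ + ‖x n - y n‖ := by
          have : (2 : ℝ) • y n = (x n + y n) - (x n - y n) := by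
            rw [two_smul]; abel
          calc 2 * ‖y n‖ = ‖(2 : ℝ) • y n‖ := by rw [norm_smul]; simp
            _ = ‖(x n + y n) - (x n - y n)‖ := by rw [this]
            _ ≤ ‖x n + y n‖ + ‖x n - y n‖ := norm_sub_le _ _
        simp only [hc, he, hn, if_false, hun, hvn]
        nlinarith [norm_nonneg (x n + y n), norm_nonneg (x n - y n)]
    have hfin : ∀ S : Finset ℕ, ∑ n ∈ S, (4 * ‖x n‖ ^ 2 + ‖y n‖ ^ 2) ≤ R ^ 2 := by
      intro S
      have hmink := lpSum_aux_minkowski S c u v e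
        (fun n _ => by simp only [hc]; positivity) (fun n _ => hpt n)
      have hcS : ∑ n ∈ S, c n ^ 2 = ∑ n ∈ S, (4 * ‖x n‖ ^ 2 + ‖y n‖ ^ 2) := by
        apply Finset.sum_congr rfl
        intro n _
        simp only [hc]
        rw [mul_pow, Real.sq_sqrt (by positivity)]
        ring
      have huS : Real.sqrt (∑ n ∈ S, u n ^ 2) ≤ ‖x + y‖ := by
        rw [Real.sqrt_le_left (norm_nonneg _)]
        exact lpSum_aux_sum_le (x + y) S
      have hvS : Real.sqrt (∑ n ∈ S, v n ^ 2) ≤ ‖x - y‖ := by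
        rw [Real.sqrt_le_left (norm_nonneg _)]
        exact lpSum_aux_sum_le (x - y) S
      have heS : Real.sqrt (∑ n ∈ S, e n ^ 2) ≤ η := by
        rw [Real.sqrt_le_left hη.le]
        -- split the sum
        have hsplit : ∑ n ∈ S, e n ^ 2 =
            ∑ n ∈ S.filter (fun n => n < M), e n ^ 2 +
              ∑ n ∈ S.filter (fun n => ¬ n < M), e n ^ 2 :=
          (Finset.sum_filter_add_sum_filter_not S (fun n => n < M) (fun n => e n ^ 2)).symm
        have hlow : ∑ n ∈ S.filter (fun n => n < M), e n ^ 2 ≤ (M : ℝ) * η' ^ 2 := by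
          have h1 : ∑ n ∈ S.filter (fun n => n < M), e n ^ 2 =
              ∑ n ∈ S.filter (fun n => n < M), η' ^ 2 := by
            apply Finset.sum_congr rfl
            intro n hn
            have hn' : n < M := (Finset.mem_filter.mp hn).2
            simp only [he, hn', if_true]
          rw [h1, Finset.sum_const, nsmul_eq_mul]
          have hcard : (S.filter (fun n => n < M)).card ≤ M := by
            calc (S.filter (fun n => n < M)).card ≤ (Finset.range M).card := by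
                  apply Finset.card_le_card
                  intro n hn
                  exact Finset.mem_range.mpr (Finset.mem_filter.mp hn).2
              _ = M := Finset.card_range M
          have : ((S.filter (fun n => n < M)).card : ℝ) ≤ (M : ℝ) := by exact_mod_cast hcard
          exact mul_le_mul_of_nonneg_right this (sq_nonneg _)
        have hhigh : ∑ n ∈ S.filter (fun n => ¬ n < M), e n ^ 2 ≤ 4 * (η / 8) ^ 2 := by
          have h1 : ∑ n ∈ S.filter (fun n => ¬ n < M), e n ^ 2 =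
              4 * ∑ n ∈ S.filter (fun n => ¬ n < M), ‖x n‖ ^ 2 := by
            rw [Finset.mul_sum]
            apply Finset.sum_congr rfl
            intro n hn
            have hn' : ¬ n < M := (Finset.mem_filter.mp hn).2
            simp only [he, hn', if_false]
            ring
          rw [h1]
          have hdisj : Disjoint (S.filter (fun n => ¬ n < M)) (Finset.range M) := by
            rw [Finset.disjoint_left]
            intro n hn hn2
            exact (Finset.mem_filter.mp hn).2 (Finset.mem_range.mp hn2)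
          have h2 := lpSum_aux_sum_le x (S.filter (fun n => ¬ n < M) ∪ Finset.range M)
          rw [Finset.sum_union hdisj] at h2
          have : ∑ n ∈ S.filter (fun n => ¬ n < M), ‖x n‖ ^ 2 ≤ (η / 8) ^ 2 := by linarith
          linarith
        rw [hsplit]
        nlinarith [sq_nonneg η]
      have h4 : Real.sqrt (∑ n ∈ S, (4 * ‖x n‖ ^ 2 + ‖y n‖ ^ 2)) ≤ R := by
        rw [← hcS]
        calc Real.sqrt (∑ n ∈ S, c n ^ 2)
            ≤ Real.sqrt (∑ n ∈ S, u n ^ 2) + Real.sqrt (∑ n ∈ S, v n ^ 2) +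
                Real.sqrt (∑ n ∈ S, e n ^ 2) := hmink
          _ ≤ ‖x + y‖ + ‖x - y‖ + η := by linarith
      exact (Real.sqrt_le_left hR0).mp h4
    have htot : 4 * ‖x‖ ^ 2 + ‖y‖ ^ 2 ≤ R ^ 2 := by
      have hs : HasSum (fun n => 4 * ‖x n‖ ^ 2 + ‖y n‖ ^ 2) (4 * ‖x‖ ^ 2 + ‖y‖ ^ 2) :=
        ((lpSum_aux_hasSum x).mul_left 4).add (lpSum_aux_hasSum y)
      exact hasSum_le_of_sum_le hs hfin
    have hfinal : 2 * Real.sqrt (‖x‖ ^ 2 + ‖y‖ ^ 2 / 4) = Real.sqrt (4 * ‖x‖ ^ 2 + ‖y‖ ^ 2) := by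
      have : 4 * ‖x‖ ^ 2 + ‖y‖ ^ 2 = 2 ^ 2 * (‖x‖ ^ 2 + ‖y‖ ^ 2 / 4) := by ring
      rw [this, Real.sqrt_mul (by norm_num), Real.sqrt_sq (by norm_num)]
    rw [hfinal]
    exact (Real.sqrt_le_left hR0).mpr htot

end Crest.Agent.AsyLib
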