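import Crest.Agent.AsyLib.Basic
import Crest.Agent.AsyLib.Cof

/-!
Consequences of the homogeneous midpoint property `MP`: the normalised moduli bounds, and
transport along linear isometries.
-/

set_option autoImplicit false

namespace Crest.Agent.AsyLib

variable {V : Type*} [NormedAddCommGroup V] [NormedSpace ℝ V]

/-- `MP` gives the averaged midpoint modulus bound `√(1 + t²/4) - 1` at every `t > 0`. -/
theorem MP.midpointGE (h : MP V) {t : ℝ} (ht : 0 < t) (x : V) (hx : ‖x‖ = 1) {η : ℝ}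
    (hη : 0 < η) : ∃ F : Set V, IsCofT F ∧ ∀ y ∈ F, ‖y‖ = 1 →
      Real.sqrt (1 + t ^ 2 / 4) - 1 - η ≤ (‖x + t • y‖ + ‖x - t • y‖) / 2 - 1 := by
  obtain ⟨F, hF, hFy⟩ := h x (2 * η) (by linarith)
  refine ⟨F, hF, fun y hy hy1 => ?_⟩
  have h1 := hFy (t • y) (hF.smul_mem t hy)
  have h2 : ‖t • y‖ = t := by
    rw [norm_smul, hy1, Real.norm_eq_abs, abs_of_pos ht, mul_one]
  rw [hx, h2] at h1
  have h3 : (1 : ℝ) ^ 2 + t ^ 2 / 4 = 1 + t ^ 2 / 4 := by ring
  rw [h3] at h1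
  linarith

/-- `MP` gives the maximum-based midpoint modulus bound `√(1 + t²/4) - 1` at every `t > 0`. -/
theorem MP.maxGE (h : MP V) {t : ℝ} (ht : 0 < t) (x : V) (hx : ‖x‖ = 1) {η : ℝ}
    (hη : 0 < η) : ∃ F : Set V, IsCofT F ∧ ∀ y ∈ F, ‖y‖ = 1 →
      Real.sqrt (1 + t ^ 2 / 4) - 1 - η ≤ max ‖x + t • y‖ ‖x - t • y‖ - 1 := by
  obtain ⟨F, hF, hFy⟩ := h.midpointGE ht x hx hη
  refine ⟨F, hF, fun y hy hy1 => ?_⟩
  have h1 := hFy y hy hy1
  have h2 : ‖x + t • y‖ ≤ max ‖x + t • y‖ ‖x - t • y‖ := le_max_left _ _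
  have h3 : ‖x - t • y‖ ≤ max ‖x + t • y‖ ‖x - t • y‖ := le_max_right _ _
  linarith

/-- `MP` passes to spaces embedded by a linear isometry (in particular to subspaces). -/
theorem MP.of_isometry {W : Type*} [NormedAddCommGroup W] [NormedSpace ℝ W]
    (ι : W →ₗᵢ[ℝ] V) (h : MP V) : MP W := by
  intro x η hη
  obtain ⟨F, hF, hFy⟩ := h (ι x) η hη
  refine ⟨ι.toContinuousLinearMap ⁻¹' F, hF.preimage ι.toContinuousLinearMap, fun y hy => ?_⟩
  have h1 := hFy (ι y) hy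
  rw [← map_add, ← map_sub, LinearIsometry.norm_map, LinearIsometry.norm_map,
    LinearIsometry.norm_map, LinearIsometry.norm_map] at h1
  exact h1

end Crest.Agent.AsyLib
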