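import Crest.Agent.AsyLib.Basic

/-!
The general obstruction to asymptotically uniformly convex renormings.
-/

set_option autoImplicit false

namespace Crest.Agent.AsyLib

variable {V : Type*} [NormedAddCommGroup V] [NormedSpace ℝ V]

/-- One step of the growth argument: if `N` is subadditive, absolutely homogeneous and satisfies the
AUC inequality at `t` with constant `c`, then for every `x` with `0 < N x` there is a closed
finite-codimensional subspace `F` all of whose members `y` with `t * N x ≤ N y` satisfy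
`(1 + c) * N x ≤ N (x + y)`. -/
theorem auc_step {N : V → ℝ}
    (hadd : ∀ x y : V, N (x + y) ≤ N x + N y) (hsmul : ∀ (a : ℝ) (x : V), N (a • x) = |a| * N x)
    {t c : ℝ} (ht : 0 < t) (hc : 0 < c)
    (hauc : ∀ x : V, N x = 1 → ∃ F : Set V, IsCofT F ∧
        ∀ y ∈ F, N y = 1 → c ≤ N (x + t • y) - 1)
    (x : V) (hx : 0 < N x) :
    ∃ F : Set V, IsCofT F ∧ ∀ y ∈ F, t * N x ≤ N y → (1 + c) * N x ≤ N (x + y) := by
  obtain ⟨x', hx'def⟩ : ∃ x' : V, x' = (N x)⁻¹ • x := ⟨_, rfl⟩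
  have hx' : N x' = 1 := by
    rw [hx'def, hsmul, abs_of_pos (inv_pos.mpr hx)]
    field_simp
  obtain ⟨F, ⟨S, rfl, hScl, hSfin⟩, hF⟩ := hauc _ hx'
  refine ⟨S, ⟨S, rfl, hScl, hSfin⟩, ?_⟩
  intro y hy hty
  have hNy : 0 < N y := lt_of_lt_of_le (mul_pos ht hx) hty
  obtain ⟨y', hy'def⟩ : ∃ y' : V, y' = (N y)⁻¹ • y := ⟨_, rfl⟩
  have hy' : N y' = 1 := by
    rw [hy'def, hsmul, abs_of_pos (inv_pos.mpr hNy)]
    field_simp
  have hy'mem : y' ∈ (S : Set V) := by
    rw [hy'def]; exact S.smul_mem _ hy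
  have h1 := hF _ hy'mem hy'
  obtain ⟨s, hsdef⟩ : ∃ s : ℝ, s = N y / N x := ⟨_, rfl⟩
  have hs_pos : 0 < s := by rw [hsdef]; exact div_pos hNy hx
  have hts : t ≤ s := by
    rw [hsdef, le_div_iff₀ hx]; exact hty
  obtain ⟨M, hMdef⟩ : ∃ M : ℝ, M = N (x' + s • y') := ⟨_, rfl⟩
  -- convexity of `τ ↦ N (x' + τ • y')`
  have hconv : x' + t • y' = (1 - t / s) • x' + (t / s) • (x' + s • y') := by
    have e : t / s * s = t := by field_simp
    rw [smul_add, smul_smul, sub_smul, one_smul, e]; abel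
  have h2 : N (x' + t • y') ≤ (1 - t / s) + (t / s) * M := by
    rw [hconv]
    refine (hadd _ _).trans ?_
    rw [hsmul, hsmul, hx', ← hMdef]
    have h0 : 0 ≤ t / s := (div_pos ht hs_pos).le
    have h3 : 0 ≤ 1 - t / s := by
      rw [sub_nonneg, div_le_one hs_pos]; exact hts
    rw [abs_of_nonneg h0, abs_of_nonneg h3, mul_one]
  have h4 : 1 + c ≤ M := by
    have h5 : c + t / s ≤ (t / s) * M := by linarith
    have hts' : 0 < t / s := div_pos ht hs_pos
    have h6 : t / s ≤ 1 := by rw [div_le_one hs_pos]; exact hts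
    by_contra hlt
    push Not at hlt
    have h7 : (t / s) * M < (t / s) * (1 + c) := mul_lt_mul_of_pos_left hlt hts'
    have h8 : (t / s) * c ≤ c := by nlinarith
    nlinarith
  have hxy : x + y = N x • (x' + s • y') := by
    rw [smul_add, hx'def, hy'def, smul_smul, smul_smul, smul_smul, hsdef]
    have e1 : N x * (N x)⁻¹ = 1 := by field_simp
    have e2 : N x * (N y / N x) * (N y)⁻¹ = 1 := by field_simp
    rw [e1, e2, one_smul, one_smul]
  rw [hxy, hsmul, abs_of_pos hx, ← hMdef, mul_comm]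
  exact mul_le_mul_of_nonneg_left h4 hx.le

/-- Suppose that for every `n` there is a chain structure of height `n`: sets `G n 0, …, G n n` of
vectors of norm at most `K`, with `G n 0` containing a vector of norm at least `κ`, such that from
every `x ∈ G n k` (`k < n`) and for every closed finite-codimensional `F` and `ε > 0` one can
move to some `x + y ∈ G n (k+1)` with `‖y‖ ≥ κ` and `y` within `ε` of `F`. Then no equivalent
norm `N` is asymptotically uniformly convex. (The hypotheses on `N` are the unfolded forms of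
`RealBanach.IsEquivNorm` and `RealBanach.IsAUC`.) -/
theorem noAUC_of_chains (K κ : ℝ) (hκ : 0 < κ) (G : ℕ → ℕ → Set V)
    (h0 : ∀ n, ∃ x ∈ G n 0, κ ≤ ‖x‖)
    (hK : ∀ n k, ∀ x ∈ G n k, ‖x‖ ≤ K)
    (hstep : ∀ n k, k < n → ∀ x ∈ G n k, ∀ F : Set V, IsCofT F → ∀ ε : ℝ, 0 < ε →
      ∃ y y' : V, y' ∈ F ∧ ‖y - y'‖ ≤ ε ∧ κ ≤ ‖y‖ ∧ x + y ∈ G n (k + 1))
    (N : V → ℝ)
    (hN : (∀ x y : V, N (x + y) ≤ N x + N y) ∧ (∀ (a : ℝ) (x : V), N (a • x) = abs a * N x) ∧
      ∃ a b : ℝ, 0 < a ∧ ∀ x : V, a * ‖x‖ ≤ N x ∧ N x ≤ b * ‖x‖)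
    (hAUC : ∀ t : ℝ, 0 < t → ∃ c : ℝ, 0 < c ∧ ∀ x : V, N x = 1 → ∃ F : Set V, IsCofT F ∧
      ∀ y ∈ F, N y = 1 → c ≤ N (x + t • y) - 1) : False := by
  obtain ⟨hadd, hsmul, a, b, ha, hab⟩ := hN
  -- a nonzero vector exists, so `0 < K` and `0 < b`
  obtain ⟨x0, hx0, hx0κ⟩ := h0 0
  have hx0pos : 0 < ‖x0‖ := lt_of_lt_of_le hκ hx0κ
  have hKpos : 0 < K := lt_of_lt_of_le hx0pos (hK 0 0 x0 hx0)
  have hb : 0 < b := by
    have h1 := hab x0
    have h2 : 0 < a * ‖x0‖ := mul_pos ha hx0pos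
    by_contra hb
    push Not at hb
    have : b * ‖x0‖ ≤ 0 := mul_nonpos_of_nonpos_of_nonneg hb hx0pos.le
    linarith [h1.1, h1.2]
  have hNneg : ∀ x : V, N (-x) = N x := by
    intro x
    have := hsmul (-1) x
    simpa using this
  have hNsub : ∀ x y : V, N x - N (x - y) ≤ N y := by
    intro x y
    have h1 := hadd y (x - y)
    have : y + (x - y) = x := by abel
    rw [this] at h1
    linarith
  obtain ⟨t, htdef⟩ : ∃ t : ℝ, t = a * κ / (2 * b * K) := ⟨_, rfl⟩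
  have ht : 0 < t := by rw [htdef]; positivity
  obtain ⟨c, hc, hcauc⟩ := hAUC t ht
  obtain ⟨δ, hδdef⟩ : ∃ δ : ℝ, δ = min (a * κ / (2 * b)) (c * a * κ / (2 * b)) := ⟨_, rfl⟩
  have hδ : 0 < δ := by
    rw [hδdef]; exact lt_min (by positivity) (by positivity)
  have hδ1 : b * δ ≤ a * κ / 2 := by
    have : δ ≤ a * κ / (2 * b) := by rw [hδdef]; exact min_le_left _ _
    calc b * δ ≤ b * (a * κ / (2 * b)) := mul_le_mul_of_nonneg_left this hb.le
      _ = a * κ / 2 := by field_simp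
  have hδ2 : b * δ ≤ c / 2 * (a * κ) := by
    have : δ ≤ c * a * κ / (2 * b) := by rw [hδdef]; exact min_le_right _ _
    calc b * δ ≤ b * (c * a * κ / (2 * b)) := mul_le_mul_of_nonneg_left this hb.le
      _ = c / 2 * (a * κ) := by field_simp
  have haκ : 0 < a * κ := mul_pos ha hκ
  -- choose `n` with `(1 + c/2)^n * (a κ) > b K`
  obtain ⟨n, hn⟩ : ∃ n : ℕ, b * K / (a * κ) < (1 + c / 2) ^ n :=
    pow_unbounded_of_one_lt _ (by linarith)
  have key : ∀ k, k ≤ n → ∃ x ∈ G n k, (1 + c / 2) ^ k * (a * κ) ≤ N x := by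
    intro k
    induction k with
    | zero =>
      intro _
      obtain ⟨x, hx, hxκ⟩ := h0 n
      refine ⟨x, hx, ?_⟩
      have h2 := (hab x).1
      have : a * κ ≤ a * ‖x‖ := mul_le_mul_of_nonneg_left hxκ ha.le
      simpa using this.trans h2
    | succ k ih =>
      intro hk
      obtain ⟨x, hxG, hxN⟩ := ih (Nat.le_of_succ_le hk)
      have hpow : (1 : ℝ) ≤ (1 + c / 2) ^ k := one_le_pow₀ (by linarith)
      have hNx_lower : a * κ ≤ N x := by
        calc a * κ = 1 * (a * κ) := (one_mul _).symm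
          _ ≤ (1 + c / 2) ^ k * (a * κ) := mul_le_mul_of_nonneg_right hpow haκ.le
          _ ≤ N x := hxN
      have hNx_pos : 0 < N x := lt_of_lt_of_le haκ hNx_lower
      have hNx_upper : N x ≤ b * K :=
        (hab x).2.trans (mul_le_mul_of_nonneg_left (hK n k x hxG) hb.le)
      obtain ⟨F, hFcof, hF⟩ := auc_step hadd hsmul ht hc hcauc x hNx_pos
      obtain ⟨y, z, hz, hyz, hy, hxy⟩ := hstep n k (Nat.lt_of_succ_le hk) x hxG F hFcof δ hδ
      refine ⟨x + y, hxy, ?_⟩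
      have hNyz : N (y - z) ≤ b * δ :=
        (hab (y - z)).2.trans (mul_le_mul_of_nonneg_left hyz hb.le)
      have hNy : a * κ ≤ N y := (mul_le_mul_of_nonneg_left hy ha.le).trans (hab y).1
      have hNz : a * κ / 2 ≤ N z := by
        have := hNsub y z
        linarith
      have htx : t * N x ≤ a * κ / 2 := by
        calc t * N x ≤ t * (b * K) := mul_le_mul_of_nonneg_left hNx_upper ht.le
          _ = a * κ / 2 := by rw [htdef]; field_simp
      have h1 : (1 + c) * N x ≤ N (x + z) := hF z hz (htx.trans hNz)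
      have h2 : N (x + z) ≤ N (x + y) + N (y - z) := by
        have h3 := hadd (x + y) (z - y)
        have e : x + y + (z - y) = x + z := by abel
        rw [e] at h3
        have e2 : N (z - y) = N (y - z) := by
          rw [← hNneg (y - z)]; congr 1; abel
        linarith
      have h3 : (1 + c / 2) * N x ≤ N (x + y) := by
        have : c / 2 * (a * κ) ≤ c / 2 * N x :=
          mul_le_mul_of_nonneg_left hNx_lower (by positivity)
        nlinarith
      calc (1 + c / 2) ^ (k + 1) * (a * κ) = (1 + c / 2) * ((1 + c / 2) ^ k * (a * κ)) := by ring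
        _ ≤ (1 + c / 2) * N x := mul_le_mul_of_nonneg_left hxN (by positivity)
        _ ≤ N (x + y) := h3
  obtain ⟨x, hxG, hxN⟩ := key n le_rfl
  have hNx_upper : N x ≤ b * K :=
    (hab x).2.trans (mul_le_mul_of_nonneg_left (hK n n x hxG) hb.le)
  have : b * K < (1 + c / 2) ^ n * (a * κ) := by
    rw [div_lt_iff₀ haκ] at hn; exact hn
  linarith

/-- Version with a single set of good vectors closed under the steps. -/
theorem noAUC_of_steps (K κ : ℝ) (hκ : 0 < κ) (G : Set V)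
    (h0 : ∃ x ∈ G, κ ≤ ‖x‖)
    (hK : ∀ x ∈ G, ‖x‖ ≤ K)
    (hstep : ∀ x ∈ G, ∀ F : Set V, IsCofT F → ∀ ε : ℝ, 0 < ε →
      ∃ y y' : V, y' ∈ F ∧ ‖y - y'‖ ≤ ε ∧ κ ≤ ‖y‖ ∧ x + y ∈ G)
    (N : V → ℝ)
    (hN : (∀ x y : V, N (x + y) ≤ N x + N y) ∧ (∀ (a : ℝ) (x : V), N (a • x) = abs a * N x) ∧
      ∃ a b : ℝ, 0 < a ∧ ∀ x : V, a * ‖x‖ ≤ N x ∧ N x ≤ b * ‖x‖)
    (hAUC : ∀ t : ℝ, 0 < t → ∃ c : ℝ, 0 < c ∧ ∀ x : V, N x = 1 → ∃ F : Set V, IsCofT F ∧
      ∀ y ∈ F, N y = 1 → c ≤ N (x + t • y) - 1) : False :=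
  noAUC_of_chains K κ hκ (fun _ _ => G) (fun _ => h0) (fun _ _ => hK)
    (fun _ _ _ => hstep) N hN hAUC

end Crest.Agent.AsyLib
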