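import Crest.Agent.AsyLib.Basic

/-!
Reflexivity: spaces isomorphic to a Hilbert space, and `ℓ₂`-sums of reflexive spaces.
-/

set_option autoImplicit false

namespace Crest.Agent.AsyLib

open scoped ENNReal
open Filter Topology

/-- A real normed space linearly homeomorphic to a Hilbert space is reflexive. -/
theorem reflexive_of_equiv_hilbert {V H : Type*} [NormedAddCommGroup V] [NormedSpace ℝ V]
    [NormedAddCommGroup H] [InnerProductSpace ℝ H] [CompleteSpace H] (e : V ≃L[ℝ] H) :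
    Function.Surjective (NormedSpace.inclusionInDoubleDual ℝ V) := by
  intro Φ
  let ψl : H →ₗ[ℝ] ℝ :=
    { toFun := fun h => Φ ((InnerProductSpace.toDual ℝ H h).comp (e : V →L[ℝ] H))
      map_add' := by
        intro a b
        simp [map_add, ContinuousLinearMap.add_comp]
      map_smul' := by
        intro c a
        simp [ContinuousLinearMap.smul_comp] }
  have hψ : ∀ h, ‖ψl h‖ ≤ (‖Φ‖ * ‖(e : V →L[ℝ] H)‖) * ‖h‖ := by
    intro h
    calc ‖ψl h‖ ≤ ‖Φ‖ * ‖(InnerProductSpace.toDual ℝ H h).comp (e : V →L[ℝ] H)‖ :=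
          Φ.le_opNorm _
      _ ≤ ‖Φ‖ * (‖InnerProductSpace.toDual ℝ H h‖ * ‖(e : V →L[ℝ] H)‖) := by
          gcongr
          exact ContinuousLinearMap.opNorm_comp_le _ _
      _ = (‖Φ‖ * ‖(e : V →L[ℝ] H)‖) * ‖h‖ := by
          rw [LinearIsometryEquiv.norm_map]; ring
  let ψ : H →L[ℝ] ℝ := ψl.mkContinuous _ hψ
  obtain ⟨h₀, hh₀⟩ : ∃ h₀, InnerProductSpace.toDual ℝ H h₀ = ψ :=
    (InnerProductSpace.toDual ℝ H).surjective ψ
  refine ⟨e.symm h₀, ?_⟩
  ext f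
  obtain ⟨g, hg⟩ := (InnerProductSpace.toDual ℝ H).surjective (f.comp (e.symm : H →L[ℝ] V))
  have hf : f = (InnerProductSpace.toDual ℝ H g).comp (e : V →L[ℝ] H) := by
    rw [hg]; ext v; simp
  have h1 : Φ f = ψ g := by rw [hf]; rfl
  have h2 : ψ g = inner ℝ h₀ g := by
    rw [← hh₀, InnerProductSpace.toDual_apply_apply]
  have h3 : f (e.symm h₀) = inner ℝ g h₀ := by
    have := congrArg (fun F : StrongDual ℝ H => F h₀) hg
    simp only [InnerProductSpace.toDual_apply_apply] at this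
    rw [this]; simp
  rw [NormedSpace.dual_def, h1, h2, h3, real_inner_comm]

section LpTwo

variable {X : ℕ → Type*} [∀ n, NormedAddCommGroup (X n)]

private lemma refl_two_toReal : (2 : ℝ≥0∞).toReal = 2 := by simp

private lemma refl_sum_sq_apply_le (y : lp X 2) (S : Finset ℕ) :
    ∑ n ∈ S, ‖y n‖ ^ 2 ≤ ‖y‖ ^ 2 := by
  have h := lp.sum_rpow_le_norm_rpow (p := 2) (by simp) y S
  simp only [refl_two_toReal, Real.rpow_two] at h
  exact h

private lemma refl_norm_sum_single_sq (S : Finset ℕ) (z : ∀ n, X n) :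
    ‖∑ n ∈ S, lp.single 2 n (z n)‖ ^ 2 = ∑ n ∈ S, ‖z n‖ ^ 2 := by
  have h := lp.norm_sum_single (p := 2) (by simp) z S
  simp only [refl_two_toReal, Real.rpow_two] at h
  exact h

private lemma refl_le_sq_of_le_mul_sqrt {B c : ℝ} (hB : 0 ≤ B) (hc : 0 ≤ c)
    (h : B ≤ c * Real.sqrt B) : B ≤ c ^ 2 := by
  have hs : Real.sqrt B * Real.sqrt B = B := Real.mul_self_sqrt hB
  have hs0 : 0 ≤ Real.sqrt B := Real.sqrt_nonneg B
  by_cases h0 : Real.sqrt B = 0
  · have : B = 0 := by rw [← hs, h0]; ring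
    rw [this]; positivity
  · have hpos : 0 < Real.sqrt B := lt_of_le_of_ne hs0 (Ne.symm h0)
    have h1 : Real.sqrt B ≤ c := by
      have : Real.sqrt B * Real.sqrt B ≤ c * Real.sqrt B := by rw [hs]; exact h
      exact le_of_mul_le_mul_right this hpos
    calc B = Real.sqrt B * Real.sqrt B := hs.symm
      _ ≤ c * c := by gcongr
      _ = c ^ 2 := by ring

variable [∀ n, NormedSpace ℝ (X n)]

/-- Step 1: the coordinates of a bidual element are square summable. -/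
private lemma refl_step1 (Φ : StrongDual ℝ (StrongDual ℝ (lp X 2))) (x : ∀ n, X n)
    (hx : ∀ n (f : StrongDual ℝ (X n)), Φ (f.comp (lp.evalCLM ℝ X 2 n)) = f (x n))
    (S : Finset ℕ) : ∑ n ∈ S, ‖x n‖ ^ 2 ≤ ‖Φ‖ ^ 2 := by
  have hf : ∀ n, ∃ f : StrongDual ℝ (X n), ‖f‖ ≤ 1 ∧ f (x n) = ‖x n‖ :=
    fun n => exists_dual_vector'' ℝ (x n)
  choose f hf1 hf2 using hf
  set B : ℝ := ∑ n ∈ S, ‖x n‖ ^ 2 with hB
  have hB0 : 0 ≤ B := Finset.sum_nonneg fun n _ => by positivity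
  let g : StrongDual ℝ (lp X 2) := ∑ n ∈ S, ‖x n‖ • (f n).comp (lp.evalCLM ℝ X 2 n)
  have hΦg : Φ g = B := by
    simp only [g, map_sum, map_smul, hx, hf2, hB, smul_eq_mul]
    refine Finset.sum_congr rfl fun n _ => by ring
  have hg : ‖g‖ ≤ Real.sqrt B := by
    refine ContinuousLinearMap.opNorm_le_bound _ (Real.sqrt_nonneg _) fun y => ?_
    have hgy : g y = ∑ n ∈ S, ‖x n‖ * f n (y n) := by
      simp only [g, sum_apply, smul_apply,
        ContinuousLinearMap.comp_apply, smul_eq_mul]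
      rfl
    rw [hgy]
    calc ‖∑ n ∈ S, ‖x n‖ * f n (y n)‖ ≤ ∑ n ∈ S, ‖‖x n‖ * f n (y n)‖ := norm_sum_le _ _
      _ ≤ ∑ n ∈ S, ‖x n‖ * ‖y n‖ := by
          refine Finset.sum_le_sum fun n _ => ?_
          rw [norm_mul, norm_norm]
          refine mul_le_mul_of_nonneg_left ?_ (norm_nonneg _)
          calc ‖f n (y n)‖ ≤ ‖f n‖ * ‖y n‖ := (f n).le_opNorm _
            _ ≤ 1 * ‖y n‖ := by gcongr; exact hf1 n
            _ = ‖y n‖ := one_mul _
      _ ≤ Real.sqrt (∑ n ∈ S, ‖x n‖ ^ 2) * Real.sqrt (∑ n ∈ S, ‖y n‖ ^ 2) :=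
          Real.sum_mul_le_sqrt_mul_sqrt _ _ _
      _ ≤ Real.sqrt B * ‖y‖ := by
          refine mul_le_mul_of_nonneg_left ?_ (Real.sqrt_nonneg _)
          exact Real.sqrt_le_iff.mpr ⟨norm_nonneg _, refl_sum_sq_apply_le y S⟩
  refine refl_le_sq_of_le_mul_sqrt hB0 Φ.opNorm_nonneg ?_
  calc B = Φ g := hΦg.symm
    _ ≤ ‖Φ g‖ := le_abs_self _
    _ ≤ ‖Φ‖ * ‖g‖ := Φ.le_opNorm _
    _ ≤ ‖Φ‖ * Real.sqrt B := by gcongr

/-- Near-norming vectors for a functional. -/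
private lemma refl_exists_near_norming {Y : Type*} [NormedAddCommGroup Y] [NormedSpace ℝ Y]
    (φ : StrongDual ℝ Y) {θ : ℝ} (hθ : θ < 1) :
    ∃ y : Y, ‖y‖ ≤ 1 ∧ θ * ‖φ‖ ≤ φ y := by
  by_cases h0 : ‖φ‖ = 0
  · exact ⟨0, by simp, by simp [h0]⟩
  · have hpos : 0 < ‖φ‖ := lt_of_le_of_ne (norm_nonneg _) (Ne.symm h0)
    have hlt : θ * ‖φ‖ < ‖φ‖ := by nlinarith
    obtain ⟨y, hy1, hy2⟩ := φ.exists_lt_apply_of_lt_opNorm hlt
    rw [Real.norm_eq_abs] at hy2
    rcases le_total 0 (φ y) with h | h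
    · exact ⟨y, hy1.le, by rw [abs_of_nonneg h] at hy2; exact hy2.le⟩
    · refine ⟨-y, by rw [norm_neg]; exact hy1.le, ?_⟩
      rw [abs_of_nonpos h] at hy2
      rw [map_neg]; exact hy2.le

/-- Step 2a: the coordinate functionals of a functional on the `ℓ₂`-sum are square summable. -/
private lemma refl_dual_sq_sum_le (g : StrongDual ℝ (lp X 2)) (S : Finset ℕ) :
    ∑ n ∈ S, ‖g.comp (lp.singleContinuousLinearMap ℝ X 2 n)‖ ^ 2 ≤ ‖g‖ ^ 2 := by
  set a : ℕ → ℝ := fun n => ‖g.comp (lp.singleContinuousLinearMap ℝ X 2 n)‖ with ha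
  have ha0 : ∀ n, 0 ≤ a n := fun n => norm_nonneg _
  set B : ℝ := ∑ n ∈ S, a n ^ 2 with hB
  have hB0 : 0 ≤ B := Finset.sum_nonneg fun n _ => by positivity
  refine refl_le_sq_of_le_mul_sqrt hB0 g.opNorm_nonneg ?_
  have key : ∀ θ : ℝ, θ < 1 → θ * B ≤ ‖g‖ * Real.sqrt B := by
    intro θ hθ
    have hy : ∀ n, ∃ y : X n, ‖y‖ ≤ 1 ∧
        θ * a n ≤ (g.comp (lp.singleContinuousLinearMap ℝ X 2 n)) y :=
      fun n => refl_exists_near_norming _ hθ
    choose y hy1 hy2 using hy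
    have h1 : θ * B ≤ ∑ n ∈ S, a n * g (lp.single 2 n (y n)) := by
      rw [hB, Finset.mul_sum]
      refine Finset.sum_le_sum fun n _ => ?_
      have := mul_le_mul_of_nonneg_left (hy2 n) (ha0 n)
      calc θ * a n ^ 2 = a n * (θ * a n) := by ring
        _ ≤ a n * (g.comp (lp.singleContinuousLinearMap ℝ X 2 n)) (y n) := this
        _ = a n * g (lp.single 2 n (y n)) := rfl
    have h2 : ∑ n ∈ S, a n * g (lp.single 2 n (y n))
        = g (∑ n ∈ S, lp.single 2 n (a n • y n)) := by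
      rw [map_sum]
      refine Finset.sum_congr rfl fun n _ => ?_
      rw [lp.single_smul, map_smul, smul_eq_mul]
    have h3 : ‖∑ n ∈ S, lp.single 2 n (a n • y n)‖ ≤ Real.sqrt B := by
      refine Real.le_sqrt_of_sq_le ?_
      rw [refl_norm_sum_single_sq S (fun n => a n • y n), hB]
      refine Finset.sum_le_sum fun n _ => ?_
      rw [norm_smul, Real.norm_eq_abs, abs_of_nonneg (ha0 n)]
      have : a n * ‖y n‖ ≤ a n * 1 := mul_le_mul_of_nonneg_left (hy1 n) (ha0 n)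
      have h0 : 0 ≤ a n * ‖y n‖ := mul_nonneg (ha0 n) (norm_nonneg _)
      calc (a n * ‖y n‖) ^ 2 ≤ (a n * 1) ^ 2 := by gcongr
        _ = a n ^ 2 := by ring
    calc θ * B ≤ ∑ n ∈ S, a n * g (lp.single 2 n (y n)) := h1
      _ = g (∑ n ∈ S, lp.single 2 n (a n • y n)) := h2
      _ ≤ ‖g (∑ n ∈ S, lp.single 2 n (a n • y n))‖ := le_abs_self _
      _ ≤ ‖g‖ * ‖∑ n ∈ S, lp.single 2 n (a n • y n)‖ := g.le_opNorm _
      _ ≤ ‖g‖ * Real.sqrt B := by gcongr
  by_contra hcon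
  rw [not_le] at hcon
  have hBpos : 0 < B := lt_of_le_of_lt (mul_nonneg g.opNorm_nonneg (Real.sqrt_nonneg _)) hcon
  have := key ((‖g‖ * Real.sqrt B / B + 1) / 2) (by
    have : ‖g‖ * Real.sqrt B / B < 1 := (div_lt_one hBpos).mpr hcon
    linarith)
  have h4 : (‖g‖ * Real.sqrt B / B + 1) / 2 * B = (‖g‖ * Real.sqrt B + B) / 2 := by
    field_simp
  rw [h4] at this
  linarith

/-- Step 2b: a functional on the `ℓ₂`-sum is the sum of its coordinate parts. -/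
private lemma refl_hasSum_dual (g : StrongDual ℝ (lp X 2)) (y : lp X 2) :
    HasSum (fun n => g (lp.single 2 n (y n))) (g y) :=
  g.hasSum (lp.hasSum_single (by simp) y)

private lemma refl_summable_dual (g : StrongDual ℝ (lp X 2)) :
    Summable (fun n => ‖g.comp (lp.singleContinuousLinearMap ℝ X 2 n)‖ ^ 2) :=
  summable_of_sum_le (fun n => by positivity) (refl_dual_sq_sum_le g)

/-- Step 2c: tail estimate for the dual norm. -/
private lemma refl_tail (g : StrongDual ℝ (lp X 2)) (S : Finset ℕ) :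
    ‖g - ∑ n ∈ S, (g.comp (lp.singleContinuousLinearMap ℝ X 2 n)).comp (lp.evalCLM ℝ X 2 n)‖
      ≤ Real.sqrt ((∑' n, ‖g.comp (lp.singleContinuousLinearMap ℝ X 2 n)‖ ^ 2)
          - ∑ n ∈ S, ‖g.comp (lp.singleContinuousLinearMap ℝ X 2 n)‖ ^ 2) := by
  set a : ℕ → ℝ := fun n => ‖g.comp (lp.singleContinuousLinearMap ℝ X 2 n)‖ with ha
  have ha0 : ∀ n, 0 ≤ a n := fun n => norm_nonneg _
  have hsum : Summable (fun n => a n ^ 2) := refl_summable_dual g
  set R : ℝ := (∑' n, a n ^ 2) - ∑ n ∈ S, a n ^ 2 with hR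
  refine ContinuousLinearMap.opNorm_le_bound _ (Real.sqrt_nonneg _) fun y => ?_
  have hval : (g - ∑ n ∈ S, (g.comp (lp.singleContinuousLinearMap ℝ X 2 n)).comp
      (lp.evalCLM ℝ X 2 n)) y = g y - ∑ n ∈ S, g (lp.single 2 n (y n)) := by
    simp only [sub_apply, sum_apply, ContinuousLinearMap.comp_apply]
    rfl
  rw [hval]
  have hlim : Tendsto (fun U : Finset ℕ => ‖∑ n ∈ U, g (lp.single 2 n (y n))
      - ∑ n ∈ S, g (lp.single 2 n (y n))‖) atTop
      (𝓝 ‖g y - ∑ n ∈ S, g (lp.single 2 n (y n))‖) :=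
    ((refl_hasSum_dual g y).sub_const _).norm
  refine le_of_tendsto hlim ?_
  filter_upwards [eventually_ge_atTop S] with U hU
  have hsplit : ∑ n ∈ U, g (lp.single 2 n (y n)) - ∑ n ∈ S, g (lp.single 2 n (y n))
      = ∑ n ∈ U \ S, g (lp.single 2 n (y n)) := by
    rw [← Finset.sum_sdiff hU]; ring
  rw [hsplit]
  have hRU : ∑ n ∈ U \ S, a n ^ 2 ≤ R := by
    have h1 : ∑ n ∈ U, a n ^ 2 ≤ ∑' n, a n ^ 2 :=
      hsum.sum_le_tsum U (fun n _ => by positivity)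
    have h2 : ∑ n ∈ U \ S, a n ^ 2 + ∑ n ∈ S, a n ^ 2 = ∑ n ∈ U, a n ^ 2 :=
      Finset.sum_sdiff hU
    rw [hR]; linarith
  calc ‖∑ n ∈ U \ S, g (lp.single 2 n (y n))‖
      ≤ ∑ n ∈ U \ S, ‖g (lp.single 2 n (y n))‖ := norm_sum_le _ _
    _ ≤ ∑ n ∈ U \ S, a n * ‖y n‖ := by
        refine Finset.sum_le_sum fun n _ => ?_
        exact (g.comp (lp.singleContinuousLinearMap ℝ X 2 n)).le_opNorm (y n)
    _ ≤ Real.sqrt (∑ n ∈ U \ S, a n ^ 2) * Real.sqrt (∑ n ∈ U \ S, ‖y n‖ ^ 2) :=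
        Real.sum_mul_le_sqrt_mul_sqrt _ _ _
    _ ≤ Real.sqrt R * ‖y‖ := by
        refine mul_le_mul (Real.sqrt_le_sqrt hRU) ?_ (Real.sqrt_nonneg _) (Real.sqrt_nonneg _)
        exact Real.sqrt_le_iff.mpr ⟨norm_nonneg _, refl_sum_sq_apply_le y _⟩

end LpTwo

/-- The `ℓ₂`-sum of a sequence of reflexive Banach spaces is reflexive. -/
theorem reflexive_lp_two {X : ℕ → Type*} [∀ n, NormedAddCommGroup (X n)]
    [∀ n, NormedSpace ℝ (X n)] [∀ n, CompleteSpace (X n)]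
    (h : ∀ n, Function.Surjective (NormedSpace.inclusionInDoubleDual ℝ (X n))) :
    Function.Surjective (NormedSpace.inclusionInDoubleDual ℝ (lp X 2)) := by
  intro Φ
  have hx : ∀ n, ∃ xn : X n, ∀ f : StrongDual ℝ (X n),
      Φ (f.comp (lp.evalCLM ℝ X 2 n)) = f xn := by
    intro n
    obtain ⟨xn, hxn⟩ := h n (Φ.comp
      ((ContinuousLinearMap.compL ℝ (lp X 2) (X n) ℝ).flip (lp.evalCLM ℝ X 2 n)))
    refine ⟨xn, fun f => ?_⟩
    have := congrArg (fun Ψ : StrongDual ℝ (StrongDual ℝ (X n)) => Ψ f) hxn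
    simp only [NormedSpace.dual_def] at this
    rw [this]
    rfl
  choose x hx using hx
  have hmem : Memℓp x 2 := by
    refine memℓp_gen' (C := ‖Φ‖ ^ 2) fun S => ?_
    have := refl_step1 Φ x hx S
    simpa [Real.rpow_two] using this
  refine ⟨⟨x, hmem⟩, ?_⟩
  ext g
  rw [NormedSpace.dual_def]
  set a : ℕ → ℝ := fun n => ‖g.comp (lp.singleContinuousLinearMap ℝ X 2 n)‖ with ha
  have hsum : Summable (fun n => a n ^ 2) := refl_summable_dual g
  -- the partial sums of the coordinate parts of `g`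
  let gS : Finset ℕ → StrongDual ℝ (lp X 2) := fun S =>
    ∑ n ∈ S, (g.comp (lp.singleContinuousLinearMap ℝ X 2 n)).comp (lp.evalCLM ℝ X 2 n)
  have hgS : Tendsto gS atTop (𝓝 g) := by
    rw [tendsto_iff_norm_sub_tendsto_zero]
    have hR : Tendsto (fun S : Finset ℕ =>
        Real.sqrt ((∑' n, a n ^ 2) - ∑ n ∈ S, a n ^ 2)) atTop (𝓝 0) := by
      have h1 : Tendsto (fun S : Finset ℕ => (∑' n, a n ^ 2) - ∑ n ∈ S, a n ^ 2) atTop
          (𝓝 ((∑' n, a n ^ 2) - ∑' n, a n ^ 2)) :=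
        tendsto_const_nhds.sub hsum.hasSum
      rw [sub_self] at h1
      have h2 := (Real.continuous_sqrt.tendsto 0).comp h1
      rw [Real.sqrt_zero] at h2
      exact h2
    refine squeeze_zero (fun S => norm_nonneg _) (fun S => ?_) hR
    rw [norm_sub_rev]
    exact refl_tail g S
  have hΦ : Tendsto (fun S => Φ (gS S)) atTop (𝓝 (Φ g)) :=
    (Φ.continuous.tendsto g).comp hgS
  have hval : ∀ S, Φ (gS S) = ∑ n ∈ S, g (lp.single 2 n (x n)) := by
    intro S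
    simp only [gS, map_sum, hx]
    rfl
  have hg : Tendsto (fun S : Finset ℕ => ∑ n ∈ S, g (lp.single 2 n (x n))) atTop
      (𝓝 (g ⟨x, hmem⟩)) := refl_hasSum_dual g ⟨x, hmem⟩
  have hΦ' : Tendsto (fun S : Finset ℕ => ∑ n ∈ S, g (lp.single 2 n (x n))) atTop
      (𝓝 (Φ g)) := by
    refine hΦ.congr fun S => hval S
  exact tendsto_nhds_unique hg hΦ'

end Crest.Agent.AsyLib
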